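import Vale.Agent.P242.H155.Inv

/-! P242, package A-H234, linear algebra half (helper155): from forms on `c`-space to the
hypotheses (h2), (h3), (h4), (h7) of `H71.PB.Hyp`. -/

open scoped RealInnerProductSpace

noncomputable section

universe u

namespace Vale.Agent.P242.H155

open Vale.Agent.P242.H71

/-- Data on `c`-space: `G k x` (averaged Gram form `P_{t_k}⟨∇u_c,∇u_c'⟩(x)`) and the seminorm
`μ k x c = √(N_k(x)(c))`. -/
structure CD (n : ℕ) (X : Type u) where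
  G : ℕ → X → E n →ₗ[ℝ] E n →ₗ[ℝ] ℝ
  μ : ℕ → X → Seminorm ℝ (E n)

/-- Estimates on `c`-space. -/
structure CHyp {n : ℕ} {X : Type u} [MetricSpace X] (T : CD n X) (r₀ C₀ C₁ Λ τ B ε : ℝ) :
    Prop where
  pd : ∀ k x, PD (T.G k x)
  f2 : ∀ k x c d, |T.G k x c d - T.G (k + 1) x c d| ≤ B * (T.μ k x c * T.μ k x d)
  f3 : ∀ k x y, dist x y ≤ C₀ * rr r₀ Λ k → ∀ c d,
    |T.G k x c d - T.G k y c d| ≤ C₁ * (dist x y / rr r₀ Λ k) * (T.μ k x c * T.μ k x d)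
  f4a : ∀ k x c, T.μ k x c ^ 2 ≤ ε * T.G k x c c
  f4b : ∀ k x y, dist x y ≤ C₀ * rr r₀ Λ k → ∀ c, T.μ k y c ≤ C₁ * T.μ k x c
  f4c : ∀ k x c, T.μ k x c ≤ τ * T.μ (k + 1) x c
  f7 : ∀ j k, j ≤ k → ∀ x c, T.G k x c c ≤ 2 * T.G j x c c

/-- the metric forms and seminorms of Part B -/
def toPB {n : ℕ} {X : Type u} (T : CD n X) (u : X → E n) (D : ℕ → X → ℝ) : PB n X where
  u := u
  g := fun k x => dual (T.G k x)
  N := fun k x => (T.μ k x).comp (inv (T.G k x))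
  D := D

namespace CHyp

variable {n : ℕ} {X : Type u} [MetricSpace X] {T : CD n X} {r₀ C₀ C₁ Λ τ B ε : ℝ}
variable (H : CHyp T r₀ C₀ C₁ Λ τ B ε) (u : X → E n) (D : ℕ → X → ℝ)

theorem toPB_N (T : CD n X) (u : X → E n) (D : ℕ → X → ℝ) (k : ℕ) (x : X) (v : E n) :
    (toPB T u D).N k x v = T.μ k x (inv (T.G k x) v) := rfl

theorem toPB_g (T : CD n X) (u : X → E n) (D : ℕ → X → ℝ) (k : ℕ) (x : X) (v w : E n) :
    (toPB T u D).g k x v w = dual (T.G k x) v w := rfl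

include H

theorem symm (k x) (v w : E n) : (toPB T u D).g k x v w = (toPB T u D).g k x w v :=
  (H.pd k x).pd_dual.symm v w

theorem pos (k x) (v : E n) (hv : v ≠ 0) : 0 < (toPB T u D).g k x v v :=
  (H.pd k x).pd_dual.pos v hv

theorem g_eq (k x) (v : E n) :
    (toPB T u D).g k x v v = T.G k x (inv (T.G k x) v) (inv (T.G k x) v) :=
  (H.pd k x).dual_eq v v

theorem nrm_sq (k x) (v : E n) : (toPB T u D).nrm k x v ^ 2 = (toPB T u D).g k x v v := by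
  unfold PB.nrm
  exact Real.sq_sqrt ((H.pd k x).pd_dual.psd.nonneg v)

/-- in a `G k x`-orthonormal frame `c` of `c`-space: `|v|²_{k,x} = ∑ ⟪c a, v⟫²` -/
theorem nrm_frame (k x) {c : Fin n → E n} (hc : ∀ a b, T.G k x (c a) (c b) = if a = b then 1 else 0)
    (v : E n) : (toPB T u D).nrm k x v ^ 2 = ∑ a, ⟪c a, v⟫ ^ 2 := by
  rw [H.nrm_sq, toPB_g, (H.pd k x).dual_frame hc (by simp)]
  exact Finset.sum_congr rfl fun a _ => by ring

theorem h4a (k x) (v : E n) : (toPB T u D).N k x v ^ 2 ≤ ε * (toPB T u D).g k x v v := by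
  rw [toPB_N, H.g_eq]
  exact H.f4a k x _

theorem h2 (hB : 0 ≤ B) (hε : 0 ≤ ε) (h : 2 * (B * ε) ≤ 1) (k x) (v w : E n) :
    |(toPB T u D).g (k + 1) x v w - (toPB T u D).g k x v w| ≤
      2 * B * ((toPB T u D).N k x v * (toPB T u D).N k x w) := by
  have h1 := dual_sub (H.pd k x) (H.pd (k + 1) x) hB hε (by linarith) (H.f2 k x) (H.f4a k x) v w
  rw [abs_sub_comm]
  refine h1.trans ?_
  have h2 : (1 - B * ε)⁻¹ ≤ 2 := by
    rw [inv_le_comm₀ (by linarith) (by norm_num)]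
    linarith
  have h3 : 0 ≤ T.μ k x (inv (T.G k x) v) * T.μ k x (inv (T.G k x) w) :=
    mul_nonneg (apply_nonneg _ _) (apply_nonneg _ _)
  rw [toPB_N, toPB_N]
  refine mul_le_mul_of_nonneg_right ?_ h3
  nlinarith

theorem h3 (hr : 0 < r₀) (hΛ : 0 < Λ) (hC : 0 ≤ C₁) (hε : 0 ≤ ε) (h : 2 * (C₁ * C₀ * ε) ≤ 1)
    (k x y) (hxy : dist x y ≤ C₀ * rr r₀ Λ k) (v w : E n) :
    |(toPB T u D).g k x v w - (toPB T u D).g k y v w| ≤
      2 * C₁ * (dist x y / rr r₀ Λ k) * ((toPB T u D).N k x v * (toPB T u D).N k x w) := by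
  have hrk : 0 < rr r₀ Λ k := by unfold rr; positivity
  set q := dist x y / rr r₀ Λ k with hq
  have hq0 : 0 ≤ q := by positivity
  have hq1 : q ≤ C₀ := by rw [hq, div_le_iff₀ hrk]; exact hxy
  have hβ : C₁ * q * ε ≤ 1 / 2 := by
    have : C₁ * q * ε ≤ C₁ * C₀ * ε := by gcongr
    linarith
  have h1 := dual_sub (H.pd k x) (H.pd k y) (β := C₁ * q) (by positivity) hε (by linarith)
    (H.f3 k x y hxy) (H.f4a k x) v w
  refine h1.trans ?_
  have h2 : (1 - C₁ * q * ε)⁻¹ ≤ 2 := by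
    rw [inv_le_comm₀ (by linarith) (by norm_num)]
    linarith
  have h3 : 0 ≤ T.μ k x (inv (T.G k x) v) * T.μ k x (inv (T.G k x) w) :=
    mul_nonneg (apply_nonneg _ _) (apply_nonneg _ _)
  rw [toPB_N, toPB_N]
  refine mul_le_mul_of_nonneg_right ?_ h3
  have h4 : 0 ≤ C₁ * q := by positivity
  nlinarith

theorem h4b (hr : 0 < r₀) (hΛ : 0 < Λ) (hC : 0 ≤ C₁) (hε : 0 ≤ ε) (h : 2 * (C₁ * C₀ * ε) ≤ 1)
    (k x y) (hxy : dist x y ≤ C₀ * rr r₀ Λ k) (v : E n) :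
    (toPB T u D).N k y v ≤ 2 * C₁ * (toPB T u D).N k x v := by
  have hrk : 0 < rr r₀ Λ k := by unfold rr; positivity
  set q := dist x y / rr r₀ Λ k with hq
  have hq0 : 0 ≤ q := by positivity
  have hq1 : q ≤ C₀ := by rw [hq, div_le_iff₀ hrk]; exact hxy
  have hβ : C₁ * q * ε ≤ 1 / 2 := by
    have : C₁ * q * ε ≤ C₁ * C₀ * ε := by gcongr
    linarith
  have h1 := inv_comp (H.pd k x) (H.pd k y) (β := C₁ * q) (by positivity) hε (by linarith)
    (H.f3 k x y hxy) (H.f4a k x) v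
  have h2 : (1 - C₁ * q * ε)⁻¹ ≤ 2 := by
    rw [inv_le_comm₀ (by linarith) (by norm_num)]
    linarith
  have h3 := apply_nonneg (T.μ k x) (inv (T.G k x) v)
  rw [toPB_N, toPB_N]
  calc T.μ k y (inv (T.G k y) v) ≤ C₁ * T.μ k x (inv (T.G k y) v) := H.f4b k x y hxy _
    _ ≤ C₁ * ((1 - C₁ * q * ε)⁻¹ * T.μ k x (inv (T.G k x) v)) := by gcongr
    _ ≤ C₁ * (2 * T.μ k x (inv (T.G k x) v)) := by gcongr
    _ = _ := by ring

theorem h4c (hB : 0 ≤ B) (hτ : 0 ≤ τ) (hε : 0 ≤ ε) (h : 2 * (B * τ ^ 2 * ε) ≤ 1) (k x) (v : E n) :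
    (toPB T u D).N k x v ≤ 2 * τ * (toPB T u D).N (k + 1) x v := by
  have hf : ∀ c d, |T.G (k + 1) x c d - T.G k x c d| ≤
      B * τ ^ 2 * (T.μ (k + 1) x c * T.μ (k + 1) x d) := by
    intro c d
    rw [abs_sub_comm]
    refine (H.f2 k x c d).trans ?_
    have h1 := H.f4c k x c
    have h2 := H.f4c k x d
    have h3 := apply_nonneg (T.μ k x) c
    have h4 := apply_nonneg (T.μ k x) d
    have h5 := apply_nonneg (T.μ (k + 1) x) c
    calc B * (T.μ k x c * T.μ k x d)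
        ≤ B * ((τ * T.μ (k + 1) x c) * (τ * T.μ (k + 1) x d)) := by gcongr
      _ = _ := by ring
  have h1 := inv_comp (H.pd (k + 1) x) (H.pd k x) (β := B * τ ^ 2) (by positivity) hε
    (by linarith) hf (H.f4a (k + 1) x) v
  have h2 : (1 - B * τ ^ 2 * ε)⁻¹ ≤ 2 := by
    rw [inv_le_comm₀ (by linarith) (by norm_num)]
    linarith
  have h3 := apply_nonneg (T.μ (k + 1) x) (inv (T.G (k + 1) x) v)
  rw [toPB_N, toPB_N]
  calc T.μ k x (inv (T.G k x) v) ≤ τ * T.μ (k + 1) x (inv (T.G k x) v) := H.f4c k x _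
    _ ≤ τ * ((1 - B * τ ^ 2 * ε)⁻¹ * T.μ (k + 1) x (inv (T.G (k + 1) x) v)) := by gcongr
    _ ≤ τ * (2 * T.μ (k + 1) x (inv (T.G (k + 1) x) v)) := by gcongr
    _ = _ := by ring

theorem h7 (j k : ℕ) (hjk : j ≤ k) (x) (v : E n) :
    (toPB T u D).g j x v v ≤ 2 * (toPB T u D).g k x v v :=
  dual_le (H.pd j x) (H.pd k x) (by norm_num) (H.f7 j k hjk x) v

/-- the same comparison with any constant -/
theorem h7' {C : ℝ} (hC : 0 ≤ C) (j k : ℕ) (x) (h : ∀ c, T.G k x c c ≤ C * T.G j x c c)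
    (v : E n) : (toPB T u D).g j x v v ≤ C * (toPB T u D).g k x v v :=
  dual_le (H.pd j x) (H.pd k x) hC h v

end CHyp

end Vale.Agent.P242.H155
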