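import Vale.Agent.P242.H71.PB
import Mathlib.Analysis.InnerProductSpace.Dual
import Mathlib.Topology.Algebra.Module.FiniteDimension
import Mathlib.Analysis.Normed.Module.FiniteDimension
import Mathlib.LinearAlgebra.QuadraticForm.Basic

/-! P242, package A-H234, linear algebra half (helper155): inverse forms.

`c`-space and `v`-space are both the finite dimensional inner product space `E`. For a symmetric
positive definite form `G` on `c`-space, `inv G v` is the vector `c` with `G c d = ⟪v, d⟫`, and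
`dual G v w = ⟪inv G v, w⟫` is the inverse form on `v`-space. -/

open scoped RealInnerProductSpace

noncomputable section

namespace Vale.Agent.P242.H155

set_option linter.unusedSectionVars false

variable {E : Type*} [NormedAddCommGroup E] [InnerProductSpace ℝ E] [FiniteDimensional ℝ E]

/-- symmetric positive definite form -/
structure PD (G : E →ₗ[ℝ] E →ₗ[ℝ] ℝ) : Prop where
  symm : ∀ c d, G c d = G d c
  pos : ∀ c, c ≠ 0 → 0 < G c c

/-- symmetric positive semidefinite form -/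
structure PSD (G : E →ₗ[ℝ] E →ₗ[ℝ] ℝ) : Prop where
  symm : ∀ c d, G c d = G d c
  nonneg : ∀ c, 0 ≤ G c c

theorem PD.psd {G : E →ₗ[ℝ] E →ₗ[ℝ] ℝ} (h : PD G) : PSD G := by
  refine ⟨h.symm, fun c => ?_⟩
  by_cases hc : c = 0
  · simp [hc]
  · exact (h.pos c hc).le

/-- Cauchy-Schwarz -/
theorem PSD.cs {G : E →ₗ[ℝ] E →ₗ[ℝ] ℝ} (h : PSD G) (c d : E) : G c d ^ 2 ≤ G c c * G d d := by
  have key : ∀ t : ℝ, 0 ≤ G c c * (t * t) + 2 * G c d * t + G d d := by
    intro t
    have := h.nonneg (t • c + d)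
    simp only [map_add, map_smul, LinearMap.add_apply, LinearMap.smul_apply, smul_eq_mul] at this
    rw [h.symm d c] at this
    nlinarith
  have := discrim_le_zero key
  unfold discrim at this
  nlinarith

theorem PSD.abs_le {G : E →ₗ[ℝ] E →ₗ[ℝ] ℝ} (h : PSD G) (c d : E) :
    |G c d| ≤ √(G c c) * √(G d d) := by
  rw [← Real.sqrt_mul (h.nonneg c)]
  exact Real.abs_le_sqrt (h.cs c d)

/-- the operator of a form: `⟪op G c, d⟫ = G c d` -/
def op (G : E →ₗ[ℝ] E →ₗ[ℝ] ℝ) : E →ₗ[ℝ] E where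
  toFun c := (InnerProductSpace.toDual ℝ E).symm (LinearMap.toContinuousLinearMap (G c))
  map_add' c d := by simp
  map_smul' t c := by simp

theorem inner_op (G : E →ₗ[ℝ] E →ₗ[ℝ] ℝ) (c d : E) : ⟪op G c, d⟫ = G c d := by
  simp [op]

/-- the inverse of the operator of a form (`0` if it is not bijective) -/
def inv (G : E →ₗ[ℝ] E →ₗ[ℝ] ℝ) : E →ₗ[ℝ] E :=
  open Classical in
  if h : Function.Bijective (op G) then (LinearEquiv.ofBijective (op G) h).symm.toLinearMap else 0

theorem PD.bij {G : E →ₗ[ℝ] E →ₗ[ℝ] ℝ} (h : PD G) : Function.Bijective (op G) := by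
  have hi : Function.Injective (op G) := by
    rw [injective_iff_map_eq_zero]
    intro c hc
    by_contra hne
    have h1 := h.pos c hne
    rw [← inner_op, hc, inner_zero_left] at h1
    exact lt_irrefl _ h1
  exact ⟨hi, LinearMap.surjective_of_injective hi⟩

theorem PD.op_inv {G : E →ₗ[ℝ] E →ₗ[ℝ] ℝ} (h : PD G) (v : E) : op G (inv G v) = v := by
  unfold inv
  rw [dif_pos h.bij]
  exact (LinearEquiv.ofBijective (op G) h.bij).apply_symm_apply v

theorem PD.G_inv {G : E →ₗ[ℝ] E →ₗ[ℝ] ℝ} (h : PD G) (v d : E) : G (inv G v) d = ⟪v, d⟫ := by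
  rw [← inner_op, h.op_inv]

theorem PD.inv_op {G : E →ₗ[ℝ] E →ₗ[ℝ] ℝ} (h : PD G) (c : E) : inv G (op G c) = c :=
  h.bij.1 (h.op_inv _)

/-- the inverse form -/
def dual (G : E →ₗ[ℝ] E →ₗ[ℝ] ℝ) : E →ₗ[ℝ] E →ₗ[ℝ] ℝ where
  toFun v := (innerₗ E (inv G v))
  map_add' v w := by simp
  map_smul' t v := by simp

theorem dual_apply (G : E →ₗ[ℝ] E →ₗ[ℝ] ℝ) (v w : E) : dual G v w = ⟪inv G v, w⟫ := by
  simp [dual]

theorem PD.dual_eq {G : E →ₗ[ℝ] E →ₗ[ℝ] ℝ} (h : PD G) (v w : E) :
    dual G v w = G (inv G v) (inv G w) := by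
  rw [dual_apply, h.symm, h.G_inv, real_inner_comm]

theorem PD.pd_dual {G : E →ₗ[ℝ] E →ₗ[ℝ] ℝ} (h : PD G) : PD (dual G) := by
  refine ⟨fun v w => by rw [h.dual_eq, h.dual_eq, h.symm], fun v hv => ?_⟩
  rw [h.dual_eq]
  refine h.pos _ fun h0 => hv ?_
  rw [← h.op_inv v, h0, map_zero]

/-- seminorm of a semidefinite form -/
def fsem (M : E →ₗ[ℝ] E →ₗ[ℝ] ℝ) : Seminorm ℝ E :=
  open Classical in
  if h : PSD M then
    Seminorm.of (fun c => √(M c c))
      (fun c d => by
        have h1 := h.cs c d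
        have e : M (c + d) (c + d) = M c c + 2 * M c d + M d d := by
          simp only [map_add, LinearMap.add_apply]
          rw [h.symm d c]; ring
        have h2 : M c d ≤ √(M c c) * √(M d d) := (le_abs_self _).trans (h.abs_le c d)
        have h3 := Real.sq_sqrt (h.nonneg c)
        have h4 := Real.sq_sqrt (h.nonneg d)
        refine Real.sqrt_le_iff.2 ⟨by positivity, ?_⟩
        rw [e]
        nlinarith)
      (fun a c => by
        have e : M (a • c) (a • c) = a ^ 2 * M c c := by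
          simp only [map_smul, LinearMap.smul_apply, smul_eq_mul]; ring
        rw [e, Real.sqrt_mul (sq_nonneg a), Real.sqrt_sq_eq_abs, Real.norm_eq_abs])
  else 0

theorem PSD.fsem_apply {M : E →ₗ[ℝ] E →ₗ[ℝ] ℝ} (h : PSD M) (c : E) : fsem M c = √(M c c) := by
  unfold fsem
  rw [dif_pos h]
  rfl

theorem PSD.fsem_sq {M : E →ₗ[ℝ] E →ₗ[ℝ] ℝ} (h : PSD M) (c : E) : fsem M c ^ 2 = M c c := by
  rw [h.fsem_apply, Real.sq_sqrt (h.nonneg c)]

/-! ### comparison of two forms -/

section two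

variable {G G' : E →ₗ[ℝ] E →ₗ[ℝ] ℝ} (h : PD G) (h' : PD G') {μ : Seminorm ℝ E} {β ε : ℝ}

include h h'

/-- the key estimate: `μ (inv G' v) ≤ (1 - β ε)⁻¹ μ (inv G v)` -/
theorem inv_comp (hβ : 0 ≤ β) (hε : 0 ≤ ε) (hβε : β * ε < 1)
    (hG : ∀ c d, |G c d - G' c d| ≤ β * (μ c * μ d)) (hμ : ∀ c, μ c ^ 2 ≤ ε * G c c) (v : E) :
    μ (inv G' v) ≤ (1 - β * ε)⁻¹ * μ (inv G v) := by
  set a := inv G v with ha
  set z := inv G' v - inv G v with hz
  have h1 : 0 < 1 - β * ε := by linarith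
  have e1 : G' z z = (G a z - G' a z) := by
    have e2 := h.G_inv v z
    have e3 := h'.G_inv v z
    have : G' z z = G' (inv G' v) z - G' (inv G v) z := by
      rw [← LinearMap.sub_apply, ← map_sub]
    rw [this, e3, ← e2]
  have h2 : G' z z ≤ β * (μ a * μ z) := by rw [e1]; exact (le_abs_self _).trans (hG a z)
  have h3 : G z z - G' z z ≤ β * (μ z * μ z) := (le_abs_self _).trans (hG z z)
  have h4 := hμ z
  have hz0 := apply_nonneg μ z
  have ha0 := apply_nonneg μ a
  -- (1 - βε) μ(z)² ≤ ε (1 - βε) G z z ≤ ε G' z z ≤ βε μ(a) μ(z)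
  have h5 : (1 - β * ε) * G z z ≤ β * (μ a * μ z) := by
    have : β * (μ z * μ z) ≤ β * (ε * G z z) := by
      apply mul_le_mul_of_nonneg_left _ hβ
      nlinarith
    nlinarith
  have h6 : (1 - β * ε) * μ z ^ 2 ≤ β * ε * (μ a * μ z) := by
    have : (1 - β * ε) * μ z ^ 2 ≤ (1 - β * ε) * (ε * G z z) :=
      mul_le_mul_of_nonneg_left h4 h1.le
    have h7 : ε * ((1 - β * ε) * G z z) ≤ ε * (β * (μ a * μ z)) :=
      mul_le_mul_of_nonneg_left h5 hε
    nlinarith
  have h8 : (1 - β * ε) * μ z ≤ β * ε * μ a := by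
    rcases hz0.eq_or_lt with h9 | h9
    · rw [← h9, mul_zero]; positivity
    · have : ((1 - β * ε) * μ z) * μ z ≤ (β * ε * μ a) * μ z := by nlinarith
      exact le_of_mul_le_mul_right this h9
  have h9 : μ (inv G' v) ≤ μ a + μ z := by
    have : inv G' v = a + z := by rw [ha, hz]; abel
    rw [this]
    exact map_add_le_add μ a z
  rw [inv_mul_eq_div, le_div_iff₀ h1]
  nlinarith

/-- difference of the inverse forms -/
theorem dual_sub (hβ : 0 ≤ β) (hε : 0 ≤ ε) (hβε : β * ε < 1)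
    (hG : ∀ c d, |G c d - G' c d| ≤ β * (μ c * μ d)) (hμ : ∀ c, μ c ^ 2 ≤ ε * G c c) (v w : E) :
    |dual G v w - dual G' v w| ≤ β * (1 - β * ε)⁻¹ * (μ (inv G v) * μ (inv G w)) := by
  have e : dual G v w - dual G' v w = -(G (inv G' v) (inv G w) - G' (inv G' v) (inv G w)) := by
    have e1 : G (inv G' v) (inv G w) = dual G' v w := by
      rw [h.symm, h.G_inv, dual_apply, real_inner_comm]
    have e2 : G' (inv G' v) (inv G w) = dual G v w := by
      rw [h'.G_inv, h.pd_dual.symm, dual_apply, real_inner_comm]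
    rw [e1, e2]; ring
  rw [e, abs_neg]
  refine (hG _ _).trans ?_
  have h1 := inv_comp h h' hβ hε hβε hG hμ v
  have h2 := apply_nonneg μ (inv G w)
  calc β * (μ (inv G' v) * μ (inv G w))
      ≤ β * (((1 - β * ε)⁻¹ * μ (inv G v)) * μ (inv G w)) := by gcongr
    _ = _ := by ring

/-- `G' ≤ C G` gives `dual G ≤ C dual G'` -/
theorem dual_le {C : ℝ} (hC : 0 ≤ C) (hGG : ∀ c, G' c c ≤ C * G c c) (v : E) :
    dual G v v ≤ C * dual G' v v := by
  have e1 : dual G v v = G' (inv G' v) (inv G v) := by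
    rw [h'.G_inv, dual_apply, real_inner_comm]
  have h1 := h'.psd.cs (inv G' v) (inv G v)
  rw [← e1, ← h'.dual_eq v v] at h1
  have h2 := hGG (inv G v)
  rw [← h.dual_eq v v] at h2
  have h3 := h.pd_dual.psd.nonneg v
  have h4 := h'.pd_dual.psd.nonneg v
  rcases h3.eq_or_lt with h5 | h5
  · rw [← h5]; positivity
  · have : dual G v v * dual G v v ≤ (C * dual G' v v) * dual G v v := by nlinarith
    exact le_of_mul_le_mul_right this h5

end two

/-! ### frames -/

/-- in a `G`-orthonormal frame the inverse form is `∑ ⟪c a, v⟫ ⟪c a, w⟫` -/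
theorem PD.dual_frame {G : E →ₗ[ℝ] E →ₗ[ℝ] ℝ} (h : PD G) {ι : Type*} [Fintype ι] [DecidableEq ι]
    {c : ι → E} (hc : ∀ a b, G (c a) (c b) = if a = b then 1 else 0)
    (hcard : Fintype.card ι = Module.finrank ℝ E) (v w : E) :
    dual G v w = ∑ a, ⟪c a, v⟫ * ⟪c a, w⟫ := by
  have hli : LinearIndependent ℝ c := by
    rw [Fintype.linearIndependent_iff]
    intro t ht a
    have := congrArg (fun x => G x (c a)) ht
    simpa [map_sum, hc] using this
  have hspan : ⊤ ≤ Submodule.span ℝ (Set.range c) :=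
    (hli.span_eq_top_of_card_eq_finrank' hcard).ge
  have hrep : ∀ x : E, x = ∑ a, G x (c a) • c a := by
    intro x
    obtain ⟨t, ht⟩ := (Submodule.mem_span_range_iff_exists_fun ℝ).1 (hspan (Submodule.mem_top (x := x)))
    have : ∀ a, G x (c a) = t a := by
      intro a
      rw [← ht]
      simp [map_sum, hc]
    simp_rw [this]
    exact ht.symm
  rw [dual_apply]
  conv_lhs => rw [hrep (inv G v)]
  rw [sum_inner]
  refine Finset.sum_congr rfl fun a _ => ?_
  rw [inner_smul_left, h.G_inv, real_inner_comm v]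
  simp

/-- existence of `G`-orthonormal frames -/
theorem PD.exists_frame {G : E →ₗ[ℝ] E →ₗ[ℝ] ℝ} (h : PD G) :
    ∃ c : Fin (Module.finrank ℝ E) → E, ∀ a b, G (c a) (c b) = if a = b then 1 else 0 := by
  have hs : LinearMap.IsSymm G := ⟨fun c d => by simpa using h.symm c d⟩
  obtain ⟨v, hv⟩ := LinearMap.BilinForm.exists_orthogonal_basis (B := G) hs
  have hv0 : ∀ a, 0 < G (v a) (v a) := fun a => h.pos _ (v.ne_zero a)
  refine ⟨fun a => (√(G (v a) (v a)))⁻¹ • v a, fun a b => ?_⟩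
  simp only [map_smul, LinearMap.smul_apply, smul_eq_mul]
  split_ifs with hab
  · subst hab
    have h1 := Real.mul_self_sqrt (hv0 a).le
    have h2 : √(G (v a) (v a)) ≠ 0 := (Real.sqrt_pos.2 (hv0 a)).ne'
    field_simp
    nlinarith
  · have h3 : G (v a) (v b) = 0 := hv hab
    rw [h3]; simp

end Vale.Agent.P242.H155
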