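import Vale.Agent.P242.H71.Voc
import Vale.Agent.P242.H542.Gam
import Vale.Agent.P242.H155.Inv

/-! P242 (helper155): the forms `G_s(x)` and `gam_s(x)` on `E n` as bilinear maps, in the frozen
vocabulary. -/

set_option linter.all false

open MeasureTheory Filter Topology Set Metric
open scoped ENNReal NNReal InnerProductSpace

universe u

namespace Vale.Agent.P242.H155

open Vale.Agent.P233 Vale.Agent.P233.RA Vale.Agent.P242.H990 Vale.Agent.P242.H71

noncomputable section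

variable {M : Type u} [MetricSpace M] [MeasurableSpace M] {m : Measure M} {n : ℕ}
  {K : ℝ} {o : M} {A : ℝ} {p : ℝ → M → M → ℝ} {u : Fin n → M →ₘ[m] ℝ} {s t : ℝ} {x : M}

theorem uc_add (c c' : E n) : uc u (c + c') = uc u c + uc u c' := by
  simp [uc, add_smul, Finset.sum_add_distrib]

theorem uc_smul (r : ℝ) (c : E n) : uc u (r • c) = r • uc u c := by
  simp [uc, Finset.smul_sum, mul_smul]

/-- `c ↦ u_c` as a linear map -/
def ucL (u : Fin n → M →ₘ[m] ℝ) : E n →ₗ[ℝ] (M →ₘ[m] ℝ) where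
  toFun := uc u
  map_add' := uc_add
  map_smul' := uc_smul

theorem ucL_apply (c : E n) : ucL u c = uc u c := rfl

theorem uc_sum {ι : Type*} (S : Finset ι) (a : ι → ℝ) (c : ι → E n) :
    uc u (∑ i ∈ S, a i • c i) = ∑ i ∈ S, a i • uc u (c i) := by
  rw [← ucL_apply, map_sum]
  simp [ucL_apply, uc_smul]

/-- `u_c = ⟪c, uu⟫` almost everywhere -/
theorem uc_rep {uu : M → E n} (h : ∀ i, ∀ᵐ x ∂m, u i x = uu x i) (c : E n) :
    ∀ᵐ x ∂m, uc u c x = ⟪c, uu x⟫_ℝ := by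
  have h1 : ∀ᵐ x ∂m, uc u c x = ∑ i, (c i • u i) x := sum_ae _ _
  filter_upwards [h1, ae_all_iff.2 h, ae_all_iff.2 fun i => smul_ae (f := u i) (c i)] with x a1 a2 a3
  rw [a1, PiLp.inner_apply]
  refine Finset.sum_congr rfl fun i _ => ?_
  rw [a3 i, a2 i]
  simp [mul_comm]

/-- the analytic hypotheses used by the forms -/
structure FH (m : Measure M) (K : ℝ) (p : ℝ → M → M → ℝ) (u : Fin n → M →ₘ[m] ℝ) : Prop where
  hC : IsGamma (sob m)
  hB : (sob m).BEi (-|K|)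
  cen : ∀ x, Cen (sob m) (fun s => ph m p s x)
  ti : ∀ i, u i ∈ (sob m).TestI

variable (h : FH m K p u)
include h

theorem FH.tI (c : E n) : uc u c ∈ (sob m).TestI :=
  h.hC.tI_sum _ fun i _ => h.hC.tI_smul _ (h.ti i)

theorem FH.test (c : E n) : uc u c ∈ (sob m).Test := (h.tI c).1

theorem FH.memW (c : E n) : uc u c ∈ (sob m).W := (h.hC.test_A (h.test c)).1

theorem FH.mem2 (c : E n) : MemLp (uc u c) 2 m := h.hC.memLp _ (h.memW c)

theorem FH.Γ1 (c c' : E n) : MemLp ((sob m).Γ (uc u c) (uc u c')) 1 m :=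
  h.hC.toIsDir.Γ_mem1 (h.memW c) (h.memW c')

theorem FH.φA (hs : 0 < s) : ph m p s x ∈ (sob m).A := (h.cen x).memA h.hC.toIsDir hs

theorem FH.φΓ1 (hs : 0 < s) (c c' : E n) :
    MemLp (ph m p s x * (sob m).Γ (uc u c) (uc u c') : M →ₘ[m] ℝ) 1 m :=
  (h.cen x).mem_mul hs (h.Γ1 c c')

omit h in
theorem Gm_def (c c' : E n) : Gm m p u s x c c' = I (ph m p s x * (sob m).Γ (uc u c) (uc u c')) :=
  rfl

theorem FH.Gm_symm (c c' : E n) : Gm m p u s x c c' = Gm m p u s x c' c := by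
  rw [Gm_def, Gm_def, h.hC.symm _ (h.memW c) _ (h.memW c')]

theorem FH.Gm_add (hs : 0 < s) (c d c' : E n) :
    Gm m p u s x (c + d) c' = Gm m p u s x c c' + Gm m p u s x d c' := by
  rw [Gm_def, Gm_def, Gm_def, uc_add, h.hC.add_left _ (h.memW c) _ (h.memW d) _ (h.memW c'),
    mul_add, I_add (h.φΓ1 hs c c') (h.φΓ1 hs d c')]

theorem FH.Gm_smul (r : ℝ) (c c' : E n) :
    Gm m p u s x (r • c) c' = r * Gm m p u s x c c' := by
  rw [Gm_def, Gm_def, uc_smul, h.hC.smul_left _ _ (h.memW c) _ (h.memW c'), mul_smul_comm, I_smul]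

/-- `G_s(x)` as a bilinear form -/
def FH.GmL (hs : 0 < s) (x : M) : E n →ₗ[ℝ] E n →ₗ[ℝ] ℝ :=
  LinearMap.mk₂ ℝ (fun c c' => Gm m p u s x c c') (fun c d c' => h.Gm_add hs c d c')
    (fun r c c' => by simpa using h.Gm_smul r c c')
    (fun c d d' => by rw [h.Gm_symm c, h.Gm_add hs, h.Gm_symm d, h.Gm_symm d'])
    (fun r c c' => by rw [h.Gm_symm c, h.Gm_smul, h.Gm_symm c']; rfl)

theorem FH.GmL_apply (hs : 0 < s) (c c' : E n) : h.GmL hs x c c' = Gm m p u s x c c' := rfl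

theorem FH.Gm_nonneg (hs : 0 < s) (c : E n) : 0 ≤ Gm m p u s x c c := by
  rw [Gm_def]
  exact (h.cen x).av_nonneg hs (h.hC.nonneg _ (h.memW c))

theorem FH.GmL_psd (hs : 0 < s) : PSD (h.GmL hs x) :=
  ⟨fun c d => h.Gm_symm c d, fun c => h.Gm_nonneg hs c⟩

theorem FH.Gm_cs (hs : 0 < s) (c c' : E n) :
    |Gm m p u s x c c'| ≤ √(Gm m p u s x c c) * √(Gm m p u s x c' c') :=
  (h.GmL_psd (x := x) hs).abs_le c c'

omit h in
theorem gm_def (c c' : E n) :
    gm m K p u s x c c' = (sob m).NN (-|K|) (uc u c) (uc u c') (ph m p s x) := rfl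

theorem FH.gm_symm (c c' : E n) : gm m K p u s x c c' = gm m K p u s x c' c := by
  rw [gm_def, gm_def, h.hC.NN_symm h.hB (h.test c) (h.test c')]

theorem FH.gm_add (hs : 0 < s) (c d c' : E n) :
    gm m K p u s x (c + d) c' = gm m K p u s x c c' + gm m K p u s x d c' := by
  rw [gm_def, gm_def, gm_def, uc_add,
    h.hC.NN_add_left h.hB (h.test c) (h.test d) (h.test c') (h.φA hs)]

theorem FH.gm_smul (hs : 0 < s) (r : ℝ) (c c' : E n) :
    gm m K p u s x (r • c) c' = r * gm m K p u s x c c' := by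
  rw [gm_def, gm_def, uc_smul, h.hC.NN_smul_left h.hB r (h.test c) (h.test c') (h.φA hs)]

/-- `gam_s(x)` as a bilinear form -/
def FH.gmL (hs : 0 < s) (x : M) : E n →ₗ[ℝ] E n →ₗ[ℝ] ℝ :=
  LinearMap.mk₂ ℝ (fun c c' => gm m K p u s x c c') (fun c d c' => h.gm_add hs c d c')
    (fun r c c' => by simpa using h.gm_smul hs r c c')
    (fun c d d' => by rw [h.gm_symm c, h.gm_add hs, h.gm_symm d, h.gm_symm d'])
    (fun r c c' => by rw [h.gm_symm c, h.gm_smul hs, h.gm_symm c']; rfl)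

theorem FH.gmL_apply (hs : 0 < s) (c c' : E n) : h.gmL hs x c c' = gm m K p u s x c c' := rfl

theorem FH.gm_nonneg (hs : 0 < s) (c : E n) : 0 ≤ gm m K p u s x c c := by
  rw [gm_def]
  exact h.hC.NN_nonneg h.hB (h.test c) (h.φA hs) ((h.cen x).nonneg s hs)

theorem FH.gmL_psd (hs : 0 < s) : PSD (h.gmL hs x) :=
  ⟨fun c d => h.gm_symm c d, fun c => h.gm_nonneg hs c⟩

theorem FH.gm_cs (hs : 0 < s) (c c' : E n) :
    |gm m K p u s x c c'| ≤ √(gm m K p u s x c c) * √(gm m K p u s x c' c') :=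
  (h.gmL_psd (x := x) hs).abs_le c c'

end

end Vale.Agent.P242.H155
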