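import Vale.Agent.P242.H71.Voc

/-! P242 (helper155): the transformation estimate at ONE centre, for the times `≥ t`, and the near
isometry in the form used by the induction of A-T7. Definitions only. -/

set_option linter.all false

open MeasureTheory Filter Topology Set Metric
open scoped ENNReal NNReal InnerProductSpace

universe u

namespace Vale.Agent.P242.H155

open Vale.Agent.P233 Vale.Agent.P233.RA Vale.Agent.P242.H990 Vale.Agent.P242.H71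

variable {M : Type u} [MetricSpace M] [MeasurableSpace M] [BorelSpace M]

/-- (T) at the centre `x`, for the times in `[t, Q ρ²]` -/
def TTx (m : Measure M) {n : ℕ} (K : ℝ) (p : ℝ → M → M → ℝ) (Q ε ρ : ℝ)
    (u : Fin n → M →ₘ[m] ℝ) (x : M) (t : ℝ) : Prop :=
  ∀ s, t ≤ s → s ≤ Q * ρ ^ 2 → ∀ c : E n, s * gm m K p u s x c c ≤ ε * Gm m p u s x c c

theorem TTx_of_TT {m : Measure M} {n : ℕ} {K : ℝ} {o : M} {p : ℝ → M → M → ℝ} {R' Q ε ρ : ℝ}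
    {u : Fin n → M →ₘ[m] ℝ} (h : TT m K o p R' Q ε ρ u) {x : M} (hx : x ∈ ball o (R' * ρ)) {t : ℝ}
    (ht : 0 < t) : TTx m K p Q ε ρ u x t :=
  fun s hs hsQ c => h x hx s (ht.trans_le hs) hsQ c

theorem TTx.mono {m : Measure M} {n : ℕ} {K : ℝ} {p : ℝ → M → M → ℝ} {Q ε ρ : ℝ}
    {u : Fin n → M →ₘ[m] ℝ} {x : M} {t t' : ℝ} (h : TTx m K p Q ε ρ u x t) (htt : t ≤ t') :
    TTx m K p Q ε ρ u x t' :=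
  fun s hs hsQ c => h s (htt.trans hs) hsQ c

/-- Near isometry and density at `(x, t)` up to the radius `L √t`, for all vertices `q` near `x`,
with a frame `c` which is orthonormal for `G_t(x)`. -/
structure NearX (m : Measure M) {n : ℕ} (p : ℝ → M → M → ℝ) (u : Fin n → M →ₘ[m] ℝ)
    (uu : M → E n) (L ψ : ℝ) (x : M) (t : ℝ) (c : Fin n → E n) : Prop where
  fr : ∀ i j, Gm m p u t x (c i) (c j) = if i = j then 1 else 0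
  ni : ∀ q, dist x q ≤ L * √t → ∀ z, dist q z ≤ L * √t →
    |∑ i, ⟪c i, uu z - uu q⟫_ℝ ^ 2 - dist q z ^ 2| ≤ ψ * t
  li : ∀ y z, dist x y ≤ 3 * L * √t → dist x z ≤ 3 * L * √t →
    ∑ i, ⟪c i, uu y - uu z⟫_ℝ ^ 2 ≤ (1 + ψ) * dist y z ^ 2
  de : ∀ v : Fin n → ℝ, ∑ i, v i ^ 2 ≤ (L * √t) ^ 2 → ∃ z, dist x z ^ 2 ≤ 2 * ∑ i, v i ^ 2 + ψ * t ∧
    ∑ i, (⟪c i, uu z - uu x⟫_ℝ - v i) ^ 2 ≤ ψ * t

/-- A4-PRE + A-GH at one centre -/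
def Blk_NearX : Prop := ForM.{u} fun M _ _ _ => ∀ (m : Measure M) (n : ℕ) (K : ℝ) (o : M) (A : ℝ)
  (p : ℝ → M → M → ℝ), Env m n K o A p → ∀ L ψ : ℝ, 1 ≤ L → 0 < ψ →
  ∃ Q₀, 1 ≤ Q₀ ∧ ∀ Q, Q₀ ≤ Q → ∃ R₀, 1 ≤ R₀ ∧ ∀ R, R₀ ≤ R → ∃ ε₁, 0 < ε₁ ∧
    ∀ ε' η ρ, 0 < ε' → ε' ≤ ε₁ → 0 < η → η ≤ ε₁ → ρ ≤ ε₁ →
      ∀ (u : Fin n → M →ₘ[m] ℝ) (uu : M → E n), Cfg m n K o p R Q η ρ u uu →
        ∀ x ∈ ball o (R / 2 * ρ), ∀ t, 0 < t → t ≤ ρ ^ 2 → TTx m K p Q ε' ρ u x t →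
          ∃ c : Fin n → E n, NearX m p u uu L ψ x t c

/-- (ND): nondegeneracy at one centre. The constant `κ` does not depend on `L`. -/
def Blk_Nd : Prop := ForM.{u} fun M _ _ _ => ∀ (m : Measure M) (n : ℕ) (K : ℝ) (o : M) (A : ℝ)
  (p : ℝ → M → M → ℝ), Env m n K o A p → ∃ κ : ℝ, 0 < κ ∧ ∀ L, 1 ≤ L →
  ∃ Q₀, 1 ≤ Q₀ ∧ ∀ Q, Q₀ ≤ Q → ∃ R₀, 1 ≤ R₀ ∧ ∀ R, R₀ ≤ R → ∃ ε₁, 0 < ε₁ ∧
    ∀ ε' η ρ, 0 < ε' → ε' ≤ ε₁ → 0 < η → η ≤ ε₁ → ρ ≤ ε₁ →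
      ∀ (u : Fin n → M →ₘ[m] ℝ) (uu : M → E n), Cfg m n K o p R Q η ρ u uu →
        ∀ x ∈ ball o (R / 2 * ρ), ∀ t, 0 < t → t ≤ ρ ^ 2 → TTx m K p Q ε' ρ u x t →
          ∀ s, t ≤ s → s ≤ L ^ 2 * t → ∀ (c : E n) (b : ℝ),
            κ * √t * √(Gm m p u t x c c) ≤ PP m p s x |uc u c - b • (1 : M →ₘ[m] ℝ)|

/-- R1, R2 (helper196) at one centre `x` and one vertex `q`; `t' = Λ² t`. The constants `Λ`, `B` are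
chosen first; the region `t ≤ ρ² / M₀` only. -/
def Blk_R12 : Prop := ForM.{u} fun M _ _ _ => ∀ (m : Measure M) (n : ℕ) (K : ℝ) (o : M) (A : ℝ)
  (p : ℝ → M → M → ℝ), Env m n K o A p → ∃ Λ, 2 ≤ Λ ∧
  ∃ Q₀, 1 ≤ Q₀ ∧ ∀ Q, Q₀ ≤ Q → ∃ R₀, 1 ≤ R₀ ∧ ∀ R, R₀ ≤ R → ∃ B ε₁, 1 ≤ B ∧ 0 < ε₁ ∧
    ∀ A₀, 0 < A₀ → A₀ ≤ ε₁ → ∃ M₀, 1 ≤ M₀ ∧ ∃ η₁, 0 < η₁ ∧
    ∀ ε' η δ ρ, 0 < ε' → ε' ≤ ε₁ → 0 < η → η ≤ η₁ → δ ≤ η₁ → ρ ≤ η₁ →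
      ∀ (u : Fin n → M →ₘ[m] ℝ) (uu : M → E n), Cfg m n K o p R Q η ρ u uu →
        DropS m n K o p R Q δ ρ →
        ∀ x ∈ ball o (R / 2 * ρ), ∀ t, 0 < t → M₀ * t ≤ ρ ^ 2 → TTx m K p Q ε' ρ u x t →
          ∀ q, dist x q ≤ 2 * √t → ∃ (c : E n) (b : ℝ),
            PP m p (Λ ^ 2 * t) x
              |(bb m q (Λ ^ 2 * t) - bb m x (Λ ^ 2 * t)) - (b • (1 : M →ₘ[m] ℝ) + uc u c)| ≤
                B * √(Dt m n K p Q A₀ ρ t x + Dt m n K p Q A₀ ρ t q) * t ∧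
            PP m p (Λ ^ 2 * t) x
              |(bb m q (Λ ^ 2 * t) - bb m x (Λ ^ 2 * t)) -
                (cl m (ww (1 / 2) q) - cl m (ww (1 / 2) x))| ≤
                B * (Dt m n K p Q A₀ ρ t x + Dt m n K p Q A₀ ρ t q) * t ∧
            ∀ s, t / Λ ^ 2 ≤ s → s ≤ t →
              gm m K p u s x c c ≤ B * (Dt m n K p Q A₀ ρ t x + Dt m n K p Q A₀ ρ t q)

end Vale.Agent.P242.H155
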