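import Vale.Agent.P242.H155.T7e
import Vale.Agent.P242.H597.PreX
import Vale.Agent.P242.H751.BlkNd

/-! P242, package A-T7 (helper155): `Blk_T` from (R1), (R2) alone. -/

universe u

namespace Vale.Agent.P242.H155

theorem blk_T (hR12 : Blk_R12.{u}) : H71.Blk_T.{u} :=
  blk_T_of H597.blk_nearX H597.blk_PreX H751.blk_Nd hR12

end Vale.Agent.P242.H155
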