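import Vale.Agent.P242.H155.Forms
import Vale.Agent.P242.H881.Grad2

/-! P242 (helper155): the probability measures `p_s(x,·) m`, second moments and tails. -/

set_option linter.all false

open MeasureTheory Filter Topology Set Metric
open scoped ENNReal NNReal InnerProductSpace

universe u

namespace Vale.Agent.P242.H155

open Vale.Agent.P233 Vale.Agent.P233.RA Vale.Agent.P242.H990 Vale.Agent.P242.H71
open Vale.Agent.P242.H520

noncomputable section

variable {M : Type u} [MetricSpace M] [MeasurableSpace M] [BorelSpace M] {m : Measure M} {n : ℕ}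
  {K : ℝ} {o : M} {A : ℝ} {p : ℝ → M → M → ℝ} {s t : ℝ} {x : M}

/-- the measure `p_s(x,·) m` -/
def kμ (m : Measure M) (p : ℝ → M → M → ℝ) (s : ℝ) (x : M) : Measure M :=
  m.withDensity fun z => ENNReal.ofReal (p s x z)

section basic

variable (hp : Ker0 m p) (hs : 0 < s)
include hp hs

theorem ker_cont (x : M) : Continuous (p s x) := (hp.cont s hs).comp (Continuous.prodMk_right x)

theorem ker_meas (x : M) : Measurable fun z => ENNReal.ofReal (p s x z) :=
  (ker_cont hp hs x).measurable.ennreal_ofReal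

theorem kμ_prob (x : M) : IsProbabilityMeasure (kμ m p s x) := by
  refine ⟨?_⟩
  unfold kμ
  rw [withDensity_apply _ MeasurableSet.univ, Measure.restrict_univ,
    ← ofReal_integral_eq_lintegral_ofReal (hp.int s hs x) (ae_of_all _ fun z => hp.nonneg s hs x z),
    hp.mass s hs x, ENNReal.ofReal_one]

theorem kμ_integral (x : M) (F : M → ℝ) : ∫ z, F z ∂(kμ m p s x) = ∫ z, p s x z * F z ∂m := by
  unfold kμ
  rw [integral_withDensity_eq_integral_toReal_smul (ker_meas hp hs x)
    (ae_of_all _ fun z => ENNReal.ofReal_lt_top)]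
  refine integral_congr_ae (ae_of_all _ fun z => ?_)
  simp only [smul_eq_mul]
  rw [ENNReal.toReal_ofReal (hp.nonneg s hs x z)]

theorem kμ_integrable (x : M) (F : M → ℝ) :
    Integrable F (kμ m p s x) ↔ Integrable (fun z => p s x z * F z) m := by
  unfold kμ
  rw [integrable_withDensity_iff_integrable_smul' (ker_meas hp hs x)
    (ae_of_all _ fun z => ENNReal.ofReal_lt_top)]
  refine integrable_congr (ae_of_all _ fun z => ?_)
  simp only [smul_eq_mul]
  rw [ENNReal.toReal_ofReal (hp.nonneg s hs x z)]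

theorem kμ_ac (x : M) : kμ m p s x ≪ m := withDensity_absolutelyContinuous _ _

theorem kμ_I (x : M) (F : M →ₘ[m] ℝ) : I (ph m p s x * F) = ∫ z, F z ∂(kμ m p s x) := by
  rw [I_ph_mul hp hs, kμ_integral hp hs]
  rfl

theorem kμ_mem1 (x : M) (F : M →ₘ[m] ℝ) :
    MemLp (ph m p s x * F : M →ₘ[m] ℝ) 1 m ↔ Integrable F (kμ m p s x) := by
  rw [int_ph_mul hp hs, kμ_integrable hp hs]

theorem kμ_Iabs (x : M) (F : M →ₘ[m] ℝ) :
    I (ph m p s x * |F|) = ∫ z, |F z| ∂(kμ m p s x) := by
  rw [kμ_I hp hs]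
  refine integral_congr_ae ?_
  have h1 : ∀ᵐ z ∂m, (|F| : M →ₘ[m] ℝ) z = |F z| := abs_ae' F
  exact (kμ_ac hp hs x).ae_le h1

theorem kμ_real (x : M) {S : Set M} (hS : MeasurableSet S) :
    (kμ m p s x).real S = ∫ z in S, p s x z ∂m := by
  haveI := kμ_prob hp hs x
  have h1 : ∫ z, S.indicator (fun _ => (1 : ℝ)) z ∂(kμ m p s x) = (kμ m p s x).real S := by
    rw [integral_indicator hS, setIntegral_const, smul_eq_mul, mul_one]
  rw [← h1, kμ_integral hp hs, ← integral_indicator hS]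
  refine integral_congr_ae (ae_of_all _ fun z => ?_)
  by_cases hz : z ∈ S <;> simp [hz]

end basic

/-! ### moments and tails -/

section moments

variable (hp : Ker0 m p) (hk : KB n o A p)
include hp hk

/-- second moments of the distance -/
theorem dist_sq (hs : 0 < s) (h1 : 4 * A ^ 2 * s ≤ 1 / 2) (x : M) :
    Integrable (fun z => dist x z ^ 2) (kμ m p s x) ∧
      ∫ z, dist x z ^ 2 ∂(kμ m p s x) ≤
        cG n A (4 * A ^ 2) 0 * cW A 2 * Real.exp (2 * A * dist x o) * s := by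
  have hA := hk.pos
  have hcc : AEStronglyMeasurable (fun _ : M => (1 : ℝ)) m := aestronglyMeasurable_const
  have hi : Integrable (fun z => p (4 * A ^ 2 * s) x z * (1 : ℝ)) m := by
    simpa using hp.int (4 * A ^ 2 * s) (by positivity) x
  have h := hk.weight (kmeas hp) (Γ := 4 * A ^ 2) (C₀ := 0) (s := s) (s' := 4 * A ^ 2 * s) (x := x)
    (x' := x) hs le_rfl le_rfl h1 (by simp) hcc hi 2 0
  simp only [zero_mul, Real.exp_zero, mul_one, abs_one] at h
  have e0 : A * (0 : ℝ) ^ 2 = 0 := by ring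
  rw [e0, Real.exp_zero, mul_one, hp.mass _ (by positivity : 0 < 4 * A ^ 2 * s) x, mul_one] at h
  obtain ⟨hI, hle⟩ := h
  have hss : 0 < √s := Real.sqrt_pos.2 hs
  have hs2 : √s ^ 2 = s := Real.sq_sqrt hs.le
  have hb : ∀ z, p s x z * dist x z ^ 2 ≤ s * ((1 + dist x z / √s) ^ 2 * p s x z) := by
    intro z
    have h2 : dist x z ^ 2 ≤ s * (1 + dist x z / √s) ^ 2 := by
      have e1 : s * (1 + dist x z / √s) ^ 2 = (√s + dist x z) ^ 2 := by
        nth_rewrite 1 [← hs2]
        field_simp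
      rw [e1]
      exact pow_le_pow_left₀ dist_nonneg (by linarith) 2
    calc p s x z * dist x z ^ 2 ≤ p s x z * (s * (1 + dist x z / √s) ^ 2) :=
          mul_le_mul_of_nonneg_left h2 (hp.nonneg s hs x z)
      _ = _ := by ring
  have hcont : Continuous fun z => p s x z * dist x z ^ 2 :=
    (ker_cont hp hs x).mul ((continuous_const.dist continuous_id).pow 2)
  have hI2 : Integrable (fun z => p s x z * dist x z ^ 2) m := by
    refine (hI.const_mul s).mono' hcont.aestronglyMeasurable (ae_of_all _ fun z => ?_)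
    rw [Real.norm_eq_abs, abs_of_nonneg (mul_nonneg (hp.nonneg s hs x z) (sq_nonneg _))]
    exact hb z
  refine ⟨(kμ_integrable hp hs x _).2 hI2, ?_⟩
  rw [kμ_integral hp hs x]
  calc ∫ z, p s x z * dist x z ^ 2 ∂m ≤ ∫ z, s * ((1 + dist x z / √s) ^ 2 * p s x z) ∂m :=
        integral_mono hI2 (hI.const_mul s) hb
    _ = s * ∫ z, (1 + dist x z / √s) ^ 2 * p s x z ∂m := integral_const_mul _ _
    _ ≤ s * (cG n A (4 * A ^ 2) 0 * cW A 2 * Real.exp (2 * A * dist x o)) :=
        mul_le_mul_of_nonneg_left hle hs.le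
    _ = _ := by ring

/-- tails -/
theorem tail_mass (hs : 0 < s) (h1 : 4 * A ^ 2 * s ≤ 1 / 2) (x : M) {R : ℝ} (hR : 0 ≤ R) :
    (kμ m p s x).real {z | R ≤ dist x z} ≤
      cG n A (4 * A ^ 2) 0 * Real.exp (2 * A * dist x o) * Real.exp (-(R ^ 2 / (2 * A * s))) := by
  have hA := hk.pos
  have hcc : AEStronglyMeasurable (fun _ : M => (1 : ℝ)) m := aestronglyMeasurable_const
  have hi : Integrable (fun z => p (4 * A ^ 2 * s) x z * (1 : ℝ)) m := by
    simpa using hp.int (4 * A ^ 2 * s) (by positivity) x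
  have h := hk.tail (kmeas hp) (Γ := 4 * A ^ 2) (C₀ := 0) (s := s) (s' := 4 * A ^ 2 * s) (x := x)
    (x' := x) hs le_rfl le_rfl h1 (by simp) hcc hi hR
  simp only [mul_one, abs_one] at h
  rw [hp.mass _ (by positivity : 0 < 4 * A ^ 2 * s) x, mul_one] at h
  have hm : MeasurableSet {z | R ≤ dist x z} :=
    (isClosed_le continuous_const (continuous_const.dist continuous_id)).measurableSet
  rw [kμ_real hp hs x hm]
  refine h.trans (le_of_eq ?_)
  ring

end moments

/-! ### the local Poincare inequality at a point -/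

section poin

variable [m.IsOpenPosMeasure] (hC : IsGamma (sob m)) (hB : (sob m).BEi K) (hp : Ker0 m p)
include hC hB hp

theorem var_le (hs : 0 < s) {f : M →ₘ[m] ℝ} (hf : f ∈ (sob m).Test) (x : M) :
    Integrable (fun z => f z ^ 2) (kμ m p s x) ∧
    ∫ z, f z ^ 2 ∂(kμ m p s x) - (∫ z, f z ∂(kμ m p s x)) ^ 2 ≤
      2 * s * Real.exp (2 * |K| * s) * PP m p s x ((sob m).Γ f f) := by
  have hA := hC.test_A hf
  have hf2 : MemLp f 2 m := hC.memLp _ hA.1
  have hft := hA.2
  have hff : MemLp (f ^ 2 : M →ₘ[m] ℝ) 2 m := H881.sq_mem2 hf2 hft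
  have hΓ2 : MemLp ((sob m).Γ f f) 2 m := hC.Γ_mem2' hB hf hf
  have h := H881.local_poincare hC hB hs hA.1 hft hΓ2
  have c1 : Continuous (pt m p s (f ^ 2 : M →ₘ[m] ℝ)) := hp.contf s hs _ hff
  have c2 : Continuous (pt m p s f) := hp.contf s hs _ hf2
  have c3 : Continuous (pt m p s ((sob m).Γ f f)) := hp.contf s hs _ hΓ2
  have key := le_of_ae_le (m := m) (c1.sub (c2.pow 2))
    (c3.const_mul (2 * s * Real.exp (2 * |K| * s))) (by
      filter_upwards [h, hp.rep s hs _ hff, hp.rep s hs _ hf2, hp.rep s hs _ hΓ2] with z a1 a2 a3 a4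
      rw [a2, a3, a4] at a1
      exact a1) x
  have e1 : ∀ᵐ z ∂(kμ m p s x), (f ^ 2 : M →ₘ[m] ℝ) z = f z ^ 2 := (kμ_ac hp hs x).ae_le (sq_ae f)
  constructor
  · have h1 : MemLp (ph m p s x * f ^ 2 : M →ₘ[m] ℝ) 1 m := mem_mul_22 (ph_mem2 hp hs x) hff
    exact ((kμ_mem1 hp hs x _).1 h1).congr e1
  · have e2 : pt m p s (f ^ 2 : M →ₘ[m] ℝ) x = ∫ z, f z ^ 2 ∂(kμ m p s x) := by
      rw [← integral_congr_ae e1, kμ_integral hp hs x]; rfl
    have e3 : pt m p s f x = ∫ z, f z ∂(kμ m p s x) := by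
      rw [kμ_integral hp hs x]; rfl
    simp only [Pi.sub_apply, Pi.pow_apply] at key
    rw [e2, e3] at key
    refine key.trans (le_of_eq ?_)
    unfold PP
    rw [I_ph_mul hp hs]

end poin

end

end Vale.Agent.P242.H155
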