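import Mathlib.Analysis.InnerProductSpace.PiL2
import Mathlib.MeasureTheory.Integral.Bochner.Set
import Mathlib.MeasureTheory.Constructions.BorelSpace.Basic
import Mathlib.MeasureTheory.Function.L1Space.Integrable
import Mathlib.MeasureTheory.Function.StronglyMeasurable.Inner

/-! P242, package A-T7 (helper155): near isometry at two vertices gives an affine expansion of the
difference `g` of the squared distance functions in the mean. Mathlib only. -/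

open MeasureTheory Set Metric
open scoped RealInnerProductSpace

set_option linter.unusedSectionVars false

noncomputable section

namespace Vale.Agent.P242.H155

variable {M : Type*} [MetricSpace M] [MeasurableSpace M] [BorelSpace M]
variable {E : Type*} [NormedAddCommGroup E] [InnerProductSpace ℝ E]

/-- pointwise: `½(|û-û(q)|² - |û-û(x)|²)` is affine in `û` -/
theorem polar (a b c : E) :
    (‖a - b‖ ^ 2 - ‖a - c‖ ^ 2) / 2 = -⟪a, b - c⟫ + (⟪c, b - c⟫ + ‖b - c‖ ^ 2 / 2) := by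
  have h1 : a - b = (a - c) - (b - c) := by abel
  rw [h1, norm_sub_sq_real]
  have h2 : ⟪a - c, b - c⟫ = ⟪a, b - c⟫ - ⟪c, b - c⟫ := inner_sub_left _ _ _
  rw [h2]; ring

/-- Cauchy-Schwarz on a set of small measure -/
theorem int_far (μ : Measure M) [IsProbabilityMeasure μ] {F : Set M} (hFm : MeasurableSet F)
    {h y : M → ℝ} {σ B : ℝ} (hσ : 0 < σ) (hB : 0 ≤ B) (hhi : Integrable h μ)
    (hy2i : Integrable (fun z => y z ^ 2) μ) (hhy : ∀ z, |h z| ≤ y z)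
    (hyB : ∫ z, y z ^ 2 ∂μ ≤ B ^ 2) (h6 : μ.real F ≤ σ) : ∫ z in F, |h z| ∂μ ≤ √σ * B := by
  have c2 : ∀ l : ℝ, 0 < l → ∫ z in F, |h z| ∂μ ≤ l / 2 * σ + 1 / (2 * l) * B ^ 2 := by
    intro l hl
    have e1 : ∀ z ∈ F, |h z| ≤ l / 2 + 1 / (2 * l) * y z ^ 2 := by
      intro z _
      refine (hhy z).trans ?_
      have : 0 ≤ (y z - l) ^ 2 / (2 * l) := by positivity
      have e2 : l / 2 + 1 / (2 * l) * y z ^ 2 - y z = (y z - l) ^ 2 / (2 * l) := by
        field_simp; ring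
      linarith
    have hi : Integrable (fun z => l / 2 + 1 / (2 * l) * y z ^ 2) μ :=
      (integrable_const _).add (hy2i.const_mul _)
    have e2 : ∫ z in F, |h z| ∂μ ≤ ∫ z in F, (l / 2 + 1 / (2 * l) * y z ^ 2) ∂μ :=
      setIntegral_mono_on hhi.abs.integrableOn hi.integrableOn hFm e1
    have e3 : ∫ z in F, (l / 2 + 1 / (2 * l) * y z ^ 2) ∂μ =
        μ.real F * (l / 2) + 1 / (2 * l) * ∫ z in F, y z ^ 2 ∂μ := by
      rw [integral_add (integrable_const _).integrableOn (hy2i.const_mul _).integrableOn,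
        setIntegral_const, smul_eq_mul, integral_const_mul]
    have e4 : ∫ z in F, y z ^ 2 ∂μ ≤ B ^ 2 :=
      (setIntegral_le_integral hy2i (Filter.Eventually.of_forall fun z => sq_nonneg _)).trans hyB
    have e5 : μ.real F * (l / 2) ≤ σ * (l / 2) := mul_le_mul_of_nonneg_right h6 (by positivity)
    have e6 : 1 / (2 * l) * ∫ z in F, y z ^ 2 ∂μ ≤ 1 / (2 * l) * B ^ 2 :=
      mul_le_mul_of_nonneg_left e4 (by positivity)
    linarith
  rcases hB.eq_or_lt with h0 | h0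
  · refine le_of_forall_pos_le_add fun ε hε => ?_
    have := c2 (2 * ε / σ) (by positivity)
    rw [← h0] at this ⊢
    have e : 2 * ε / σ / 2 * σ = ε := by field_simp
    rw [e] at this
    linarith
  · have hS0 : 0 < √σ := Real.sqrt_pos.2 hσ
    have hS2 : √σ ^ 2 = σ := Real.sq_sqrt hσ.le
    have := c2 (B / √σ) (by positivity)
    refine this.trans (le_of_eq ?_)
    have e1 : B / √σ / 2 * σ = √σ * B / 2 := by
      nth_rewrite 2 [← hS2]
      field_simp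
    have e2 : 1 / (2 * (B / √σ)) * B ^ 2 = √σ * B / 2 := by field_simp
    rw [e1, e2]; ring

/-- the mean `a` of `û` is close to `û x` -/
theorem mean_close (μ : Measure M) [IsProbabilityMeasure μ] {x : M} {R r A σ : ℝ}
    (hσ1 : σ ≤ 1 / 2) {û : M → E}
    (h3i : Integrable (fun z => dist x z ^ 2) μ) (h3 : ∫ z, dist x z ^ 2 ∂μ ≤ A * r ^ 2)
    {a : E} (h4i : Integrable (fun z => ‖û z - a‖ ^ 2) μ) (h4 : ∫ z, ‖û z - a‖ ^ 2 ∂μ ≤ A * r ^ 2)
    (h5 : ∀ z, dist x z < R → ‖û z - û x‖ ≤ 2 * dist x z)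
    (h6 : μ.real {z | R ≤ dist x z} ≤ σ) : ‖a - û x‖ ^ 2 ≤ 20 * (A * r ^ 2) := by
  set F : Set M := {z | R ≤ dist x z} with hF
  have hFm : MeasurableSet F :=
    (isClosed_le continuous_const (continuous_const.dist continuous_id)).measurableSet
  have hFc : Fᶜ = {z | dist x z < R} := by ext z; simp [hF]
  have hnear : 1 / 2 ≤ μ.real Fᶜ := by
    rw [probReal_compl_eq_one_sub hFm]; linarith
  have e1 : ∀ z ∈ Fᶜ, ‖a - û x‖ ^ 2 ≤ 2 * ‖û z - a‖ ^ 2 + 8 * dist x z ^ 2 := by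
    intro z hz
    rw [hFc] at hz
    have h8 := h5 z hz
    have h9 : ‖a - û x‖ ≤ ‖û z - a‖ + ‖û z - û x‖ := by
      rw [norm_sub_rev (û z) a]
      calc ‖a - û x‖ = ‖(a - û z) + (û z - û x)‖ := by congr 1; abel
        _ ≤ _ := norm_add_le _ _
    have h10 := norm_nonneg (û z - a)
    have h11 := norm_nonneg (û z - û x)
    have h12 : ‖a - û x‖ ^ 2 ≤ (‖û z - a‖ + ‖û z - û x‖) ^ 2 :=
      pow_le_pow_left₀ (norm_nonneg _) h9 2
    have h13 : ‖û z - û x‖ ^ 2 ≤ (2 * dist x z) ^ 2 := pow_le_pow_left₀ h11 h8 2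
    nlinarith [sq_nonneg (‖û z - a‖ - ‖û z - û x‖)]
  have hint : Integrable (fun z => 2 * ‖û z - a‖ ^ 2 + 8 * dist x z ^ 2) μ :=
    (h4i.const_mul 2).add (h3i.const_mul 8)
  have e2 : ∫ z in Fᶜ, ‖a - û x‖ ^ 2 ∂μ ≤ ∫ z in Fᶜ, (2 * ‖û z - a‖ ^ 2 + 8 * dist x z ^ 2) ∂μ :=
    setIntegral_mono_on (integrable_const _).integrableOn hint.integrableOn hFm.compl e1
  have e3 : ∫ z in Fᶜ, (2 * ‖û z - a‖ ^ 2 + 8 * dist x z ^ 2) ∂μ
      ≤ ∫ z, (2 * ‖û z - a‖ ^ 2 + 8 * dist x z ^ 2) ∂μ :=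
    setIntegral_le_integral hint (Filter.Eventually.of_forall fun z => by positivity)
  rw [setIntegral_const, smul_eq_mul] at e2
  rw [integral_add (h4i.const_mul 2) (h3i.const_mul 8), integral_const_mul,
    integral_const_mul] at e3
  have e4 : 1 / 2 * ‖a - û x‖ ^ 2 ≤ μ.real Fᶜ * ‖a - û x‖ ^ 2 :=
    mul_le_mul_of_nonneg_right hnear (sq_nonneg _)
  linarith

theorem near_iso (μ : Measure M) [IsProbabilityMeasure μ] {x q : M} {R ψ r D A σ : ℝ}
    (hA : 1 ≤ A) (hσ : 0 < σ) (hσ1 : σ ≤ 1 / 2) (hD : 0 ≤ D) (hDr : D ≤ r) (hψ : 0 ≤ ψ)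
    {g : M → ℝ} {û : M → E} (hgm : AEStronglyMeasurable g μ) (hûm : AEStronglyMeasurable û μ)
    (h1 : ∀ z, dist x z < R → |g z - (‖û z - û q‖ ^ 2 - ‖û z - û x‖ ^ 2) / 2| ≤ ψ)
    (h2 : ∀ z, |g z| ≤ D * (dist x z + D))
    (h3i : Integrable (fun z => dist x z ^ 2) μ) (h3 : ∫ z, dist x z ^ 2 ∂μ ≤ A * r ^ 2)
    {a : E} (h4i : Integrable (fun z => ‖û z - a‖ ^ 2) μ) (h4 : ∫ z, ‖û z - a‖ ^ 2 ∂μ ≤ A * r ^ 2)
    (h5 : ∀ z, dist x z < R → ‖û z - û x‖ ≤ 2 * dist x z)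
    (h6 : μ.real {z | R ≤ dist x z} ≤ σ) (h7 : ‖û q - û x‖ ≤ 2 * D) :
    ∃ κ : ℝ, Integrable (fun z => g z + ⟪û z, û q - û x⟫ - κ) μ ∧
      ∫ z, |g z + ⟪û z, û q - û x⟫ - κ| ∂μ ≤ ψ + 20 * √(A * σ) * (D * r) := by
  set w := û q - û x with hw
  have hr : 0 ≤ r := hD.trans hDr
  -- the far set
  set F : Set M := {z | R ≤ dist x z} with hF
  have hFm : MeasurableSet F := (isClosed_le continuous_const (continuous_const.dist continuous_id)).measurableSet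
  have hFc : Fᶜ = {z | dist x z < R} := by ext z; simp [hF]
  have ha : ‖a - û x‖ ^ 2 ≤ 20 * (A * r ^ 2) := mean_close μ hσ1 h3i h3 h4i h4 h5 h6
  refine ⟨⟪û x, w⟫ + ‖w‖ ^ 2 / 2, ?_⟩
  set κ := ⟪û x, w⟫ + ‖w‖ ^ 2 / 2 with hκ
  set h : M → ℝ := fun z => g z + ⟪û z, w⟫ - κ with hh
  -- bound near `x`
  have b1 : ∀ z, dist x z < R → |h z| ≤ ψ := by
    intro z hz
    have h8 := h1 z hz
    rw [polar] at h8
    have e : h z = g z - (-⟪û z, û q - û x⟫ + (⟪û x, û q - û x⟫ + ‖û q - û x‖ ^ 2 / 2)) := by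
      simp only [hh, hκ, hw]; ring
    rw [e]; exact h8
  -- bound everywhere
  set y : M → ℝ := fun z => D * (dist x z + D) + 2 * D * ‖û z - a‖ + ‖a - û x‖ * (2 * D) + 2 * D ^ 2
    with hy
  have hw2 : ‖w‖ ^ 2 ≤ 4 * D ^ 2 := by
    have : ‖w‖ ^ 2 ≤ (2 * D) ^ 2 := pow_le_pow_left₀ (norm_nonneg _) h7 2
    linarith
  have b2 : ∀ z, |h z| ≤ y z := by
    intro z
    have e : h z = g z + ⟪û z - a, w⟫ + ⟪a - û x, w⟫ - ‖w‖ ^ 2 / 2 := by
      simp only [hh, hκ, inner_sub_left]; ring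
    have h8 : |⟪û z - a, w⟫| ≤ 2 * D * ‖û z - a‖ := by
      refine (abs_real_inner_le_norm _ _).trans ?_
      rw [mul_comm]
      exact mul_le_mul_of_nonneg_right h7 (norm_nonneg _)
    have h9 : |⟪a - û x, w⟫| ≤ ‖a - û x‖ * (2 * D) := by
      refine (abs_real_inner_le_norm _ _).trans ?_
      exact mul_le_mul_of_nonneg_left h7 (norm_nonneg _)
    rw [e]
    have h10 := h2 z
    have h11 : |‖w‖ ^ 2 / 2| ≤ 2 * D ^ 2 := by
      rw [abs_of_nonneg (by positivity)]; linarith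
    calc |g z + ⟪û z - a, w⟫ + ⟪a - û x, w⟫ - ‖w‖ ^ 2 / 2|
        ≤ |g z + ⟪û z - a, w⟫ + ⟪a - û x, w⟫| + |‖w‖ ^ 2 / 2| := abs_sub _ _
      _ ≤ |g z| + |⟪û z - a, w⟫| + |⟪a - û x, w⟫| + |‖w‖ ^ 2 / 2| := by
          gcongr
          exact (abs_add_le _ _).trans (by gcongr; exact abs_add_le _ _)
      _ ≤ y z := by simp only [hy]; linarith
  have hy0 : ∀ z, 0 ≤ y z := fun z => (abs_nonneg _).trans (b2 z)
  -- second moment of `y`
  have hy2 : ∀ z, y z ^ 2 ≤ 4 * (2 * D ^ 2 * dist x z ^ 2 + 4 * D ^ 2 * ‖û z - a‖ ^ 2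
      + (2 * D ^ 4 + 4 * D ^ 2 * ‖a - û x‖ ^ 2 + 4 * D ^ 4)) := by
    intro z
    simp only [hy]
    have := sq_nonneg (dist x z - D)
    set p1 := D * (dist x z + D)
    set p2 := 2 * D * ‖û z - a‖ with hp2
    set p3 := ‖a - û x‖ * (2 * D) with hp3
    set p4 := 2 * D ^ 2 with hp4
    have e1 : (p1 + p2 + p3 + p4) ^ 2 ≤ 4 * (p1 ^ 2 + p2 ^ 2 + p3 ^ 2 + p4 ^ 2) := by
      nlinarith [sq_nonneg (p1 - p2), sq_nonneg (p1 - p3), sq_nonneg (p1 - p4), sq_nonneg (p2 - p3),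
        sq_nonneg (p2 - p4), sq_nonneg (p3 - p4)]
    have e2 : p1 ^ 2 ≤ 2 * D ^ 2 * dist x z ^ 2 + 2 * D ^ 4 := by
      have : p1 ^ 2 = D ^ 2 * (dist x z + D) ^ 2 := by ring
      rw [this]
      have h9 : (dist x z + D) ^ 2 ≤ 2 * dist x z ^ 2 + 2 * D ^ 2 := by nlinarith
      nlinarith [mul_le_mul_of_nonneg_left h9 (sq_nonneg D)]
    have e3 : p2 ^ 2 = 4 * D ^ 2 * ‖û z - a‖ ^ 2 := by rw [hp2]; ring
    have e4 : p3 ^ 2 = 4 * D ^ 2 * ‖a - û x‖ ^ 2 := by rw [hp3]; ring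
    have e5 : p4 ^ 2 = 4 * D ^ 4 := by rw [hp4]; ring
    linarith
  have hYi : Integrable (fun z => 4 * (2 * D ^ 2 * dist x z ^ 2 + 4 * D ^ 2 * ‖û z - a‖ ^ 2
      + (2 * D ^ 4 + 4 * D ^ 2 * ‖a - û x‖ ^ 2 + 4 * D ^ 4))) μ :=
    (((h3i.const_mul _).add (h4i.const_mul _)).add (integrable_const _)).const_mul 4
  have hYint : ∫ z, 4 * (2 * D ^ 2 * dist x z ^ 2 + 4 * D ^ 2 * ‖û z - a‖ ^ 2
      + (2 * D ^ 4 + 4 * D ^ 2 * ‖a - û x‖ ^ 2 + 4 * D ^ 4)) ∂μ ≤ 400 * (A * (D * r) ^ 2) := by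
    have hi1 : Integrable (fun z => 2 * D ^ 2 * dist x z ^ 2) μ := h3i.const_mul _
    have hi2 : Integrable (fun z => 4 * D ^ 2 * ‖û z - a‖ ^ 2) μ := h4i.const_mul _
    have hi12 : Integrable (fun z => 2 * D ^ 2 * dist x z ^ 2 + 4 * D ^ 2 * ‖û z - a‖ ^ 2) μ :=
      hi1.add hi2
    rw [integral_const_mul, integral_add hi12 (integrable_const _), integral_add hi1 hi2,
      integral_const_mul, integral_const_mul, integral_const, probReal_univ, smul_eq_mul, one_mul]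
    have hD2 : D ^ 2 ≤ r ^ 2 := pow_le_pow_left₀ hD hDr 2
    have q1 : D ^ 2 * (∫ z, dist x z ^ 2 ∂μ) ≤ D ^ 2 * (A * r ^ 2) :=
      mul_le_mul_of_nonneg_left h3 (sq_nonneg _)
    have q2 : D ^ 2 * (∫ z, ‖û z - a‖ ^ 2 ∂μ) ≤ D ^ 2 * (A * r ^ 2) :=
      mul_le_mul_of_nonneg_left h4 (sq_nonneg _)
    have q3 : D ^ 2 * ‖a - û x‖ ^ 2 ≤ D ^ 2 * (20 * (A * r ^ 2)) :=
      mul_le_mul_of_nonneg_left ha (sq_nonneg _)
    have q4 : D ^ 4 ≤ A * (D * r) ^ 2 := by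
      have : D ^ 4 = D ^ 2 * D ^ 2 := by ring
      rw [this]
      have h9 : D ^ 2 * D ^ 2 ≤ D ^ 2 * r ^ 2 := mul_le_mul_of_nonneg_left hD2 (sq_nonneg _)
      have h10 : 0 ≤ (D * r) ^ 2 := sq_nonneg _
      nlinarith
    have q5 : A * (D * r) ^ 2 = D ^ 2 * (A * r ^ 2) := by ring
    nlinarith
  -- `y` and `h` are integrable
  have hhm : AEStronglyMeasurable h μ :=
    (hgm.add (hûm.inner aestronglyMeasurable_const)).sub aestronglyMeasurable_const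
  have hym : AEStronglyMeasurable y μ := by
    have h8 : AEStronglyMeasurable (fun z => dist x z) μ :=
      (continuous_const.dist continuous_id).aestronglyMeasurable
    exact ((((h8.add aestronglyMeasurable_const).const_mul D).add
      (((hûm.sub aestronglyMeasurable_const).norm).const_mul (2 * D))).add
      aestronglyMeasurable_const).add aestronglyMeasurable_const
  have hy2i : Integrable (fun z => y z ^ 2) μ := by
    refine hYi.mono' (hym.pow 2) (Filter.Eventually.of_forall fun z => ?_)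
    rw [Real.norm_eq_abs, abs_of_nonneg (sq_nonneg _)]
    exact hy2 z
  have hyi : Integrable y μ := by
    refine (((integrable_const (1 : ℝ)).add hy2i)).mono' hym (Filter.Eventually.of_forall fun z => ?_)
    rw [Real.norm_eq_abs, abs_of_nonneg (hy0 z)]
    show y z ≤ 1 + y z ^ 2
    have e : (y z - 1 / 2) ^ 2 = y z ^ 2 - y z + 1 / 4 := by ring
    have e' := sq_nonneg (y z - 1 / 2)
    linarith
  have hhi : Integrable h μ :=
    hyi.mono' hhm (Filter.Eventually.of_forall fun z => by rw [Real.norm_eq_abs]; exact b2 z)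
  refine ⟨hhi, ?_⟩
  -- near part
  have c1 : ∫ z in Fᶜ, |h z| ∂μ ≤ ψ := by
    have : ∫ z in Fᶜ, |h z| ∂μ ≤ ∫ z in Fᶜ, ψ ∂μ := by
      refine setIntegral_mono_on hhi.abs.integrableOn (integrable_const _).integrableOn hFm.compl ?_
      intro z hz
      rw [hFc] at hz
      exact b1 z hz
    refine this.trans ?_
    rw [setIntegral_const, smul_eq_mul]
    have : μ.real Fᶜ ≤ 1 := measureReal_le_one
    nlinarith
  -- far part
  have hyB : ∫ z, y z ^ 2 ∂μ ≤ (20 * √A * (D * r)) ^ 2 := by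
    refine ((integral_mono hy2i hYi hy2).trans hYint).trans (le_of_eq ?_)
    have e : (20 * √A * (D * r)) ^ 2 = 400 * √A ^ 2 * (D * r) ^ 2 := by ring
    rw [e, Real.sq_sqrt (by linarith)]; ring
  have c2 : ∫ z in F, |h z| ∂μ ≤ √σ * (20 * √A * (D * r)) :=
    int_far μ hFm hσ (by positivity) hhi hy2i b2 hyB h6
  have c3 : ∫ z, |h z| ∂μ = ∫ z in F, |h z| ∂μ + ∫ z in Fᶜ, |h z| ∂μ :=
    (integral_add_compl hFm hhi.abs).symm
  have c4 : √σ * (20 * √A * (D * r)) = 20 * √(A * σ) * (D * r) := by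
    rw [Real.sqrt_mul (by linarith)]; ring
  rw [c4] at c2
  linarith

end Vale.Agent.P242.H155
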