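import Vale.Agent.P242.H155.Tx
import Vale.Agent.P242.H155.KMu
import Vale.Agent.P242.H155.T7a
import Vale.Agent.P242.H196.Core

/-! P242, package A-T7 (helper155): the step of the induction for (T), at one centre. -/

set_option linter.all false

open MeasureTheory Filter Topology Set Metric
open scoped ENNReal NNReal InnerProductSpace

universe u

namespace Vale.Agent.P242.H155

open Vale.Agent.P233 Vale.Agent.P233.RA Vale.Agent.P242.H990 Vale.Agent.P242.H71
open Vale.Agent.P242.H520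

noncomputable section

/-! ### frames -/

section frame

variable {n : ℕ}

/-- `v ↦ ∑ v_i c_i` -/
def fS (c : Fin n → E n) : E n →ₗ[ℝ] E n where
  toFun v := ∑ i, v i • c i
  map_add' v w := by simp [add_smul, Finset.sum_add_distrib]
  map_smul' r v := by simp [Finset.smul_sum, mul_smul]

theorem fS_apply (c : Fin n → E n) (v : E n) : fS c v = ∑ i, v i • c i := rfl

/-- coordinates in the frame -/
def uh (c : Fin n → E n) (w : E n) : E n := WithLp.toLp 2 fun i => ⟪c i, w⟫_ℝ

theorem uh_apply (c : Fin n → E n) (w : E n) (i : Fin n) : uh c w i = ⟪c i, w⟫_ℝ := rfl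

theorem uh_sub (c : Fin n → E n) (w w' : E n) : uh c w - uh c w' = uh c (w - w') := by
  ext i
  simp [uh_apply, inner_sub_right]

theorem uh_norm (c : Fin n → E n) (w : E n) : ‖uh c w‖ ^ 2 = ∑ i, ⟪c i, w⟫_ℝ ^ 2 := by
  rw [EuclideanSpace.norm_sq_eq]
  simp [uh_apply]

theorem inner_uh (c : Fin n → E n) (v w : E n) : ⟪uh c w, v⟫_ℝ = ⟪fS c v, w⟫_ℝ := by
  rw [fS_apply, sum_inner, PiLp.inner_apply]
  refine Finset.sum_congr rfl fun i _ => ?_
  rw [uh_apply, real_inner_smul_left]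
  simp [mul_comm]

theorem uh_cont (c : Fin n → E n) : Continuous (uh c) := by
  refine (PiLp.continuous_toLp 2 _).comp ?_
  exact continuous_pi fun i => continuous_const.inner continuous_id

/-- orthonormality in a bilinear form -/
theorem fS_norm (G : E n →ₗ[ℝ] E n →ₗ[ℝ] ℝ) {c : Fin n → E n}
    (h : ∀ i j, G (c i) (c j) = if i = j then 1 else 0) (v : E n) :
    G (fS c v) (fS c v) = ‖v‖ ^ 2 := by
  rw [fS_apply, EuclideanSpace.norm_sq_eq]
  simp only [map_sum, map_smul, LinearMap.sum_apply, LinearMap.smul_apply, smul_eq_mul, h]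
  simp [sq_abs, sq]

theorem fS_surj (G : E n →ₗ[ℝ] E n →ₗ[ℝ] ℝ) {c : Fin n → E n}
    (h : ∀ i j, G (c i) (c j) = if i = j then 1 else 0) : Function.Surjective (fS c) := by
  have hi : Function.Injective (fS c) := by
    rw [injective_iff_map_eq_zero]
    intro v hv
    have h1 := fS_norm G h v
    rw [hv] at h1
    simp only [map_zero] at h1
    have h2 : ‖v‖ = 0 := by
      have := h1.symm
      exact pow_eq_zero_iff (two_ne_zero) |>.1 this
    exact norm_eq_zero.1 h2
  exact LinearMap.injective_iff_surjective.1 hi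

end frame

variable {M : Type u} [MetricSpace M] [MeasurableSpace M] [BorelSpace M] {m : Measure M} {n : ℕ}
  {K : ℝ} {o : M} {A : ℝ} {p : ℝ → M → M → ℝ} {u : Fin n → M →ₘ[m] ℝ} {uu : M → E n}
  {s t : ℝ} {x : M}

/-! ### the difference of two truncated squared distances -/

theorem ww_sub_abs (x q z : M) :
    |ww (1 / 2) q z - ww (1 / 2) x z| ≤ dist x q * (dist x z + dist x q) := by
  have h1 : |ww (1 / 2) q z - ww (1 / 2) x z| ≤ |dist z q ^ 2 / 2 - dist z x ^ 2 / 2| := by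
    have e : ww (1 / 2) q z - ww (1 / 2) x z =
        min (dist z q ^ 2 / 2) (1 / 2) - min (dist z x ^ 2 / 2) (1 / 2) := by
      unfold ww cc; ring
    rw [e]
    refine (abs_min_sub_min_le_max _ _ _ _).trans (le_of_eq ?_)
    rw [sub_self, abs_zero]
    exact max_eq_left (abs_nonneg _)
  refine h1.trans ?_
  have h2 : |dist z q - dist z x| ≤ dist x q := by
    rw [dist_comm x q, dist_comm z q, dist_comm z x]; exact abs_dist_sub_le q x z
  have h3 : dist z q ≤ dist x z + dist x q := by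
    rw [dist_comm x z]; exact dist_triangle _ _ _
  have e : dist z q ^ 2 / 2 - dist z x ^ 2 / 2 = (dist z q - dist z x) * ((dist z q + dist z x) / 2) := by
    ring
  rw [e, abs_mul, abs_of_nonneg (by positivity : 0 ≤ (dist z q + dist z x) / 2)]
  have h4 : dist z x = dist x z := dist_comm _ _
  have h5 : 0 ≤ dist x q := dist_nonneg
  refine mul_le_mul h2 (by linarith) (by positivity) h5

theorem ww_sub_eq {x q z : M} (h1 : dist x z ≤ 1) (h2 : dist q z ≤ 1) :
    ww (1 / 2) q z - ww (1 / 2) x z = (dist q z ^ 2 - dist x z ^ 2) / 2 := by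
  unfold ww cc
  rw [min_eq_left, min_eq_left, dist_comm z q, dist_comm z x]
  · ring
  · rw [dist_comm z x]
    have := pow_le_pow_left₀ dist_nonneg h1 2
    linarith
  · rw [dist_comm z q]
    have := pow_le_pow_left₀ dist_nonneg h2 2
    linarith

theorem ww_cont (y : M) : Continuous (ww (1 / 2) y) := by
  unfold ww cc
  fun_prop

/-- the expansion of the difference of two squared distance functions in the mean -/
theorem near_expand (hp : Ker0 m p) {L ψ Λ A₂ σ : ℝ} {c : Fin n → E n}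
    (ht : 0 < t) (hcont : Continuous uu) (hN : NearX m p u uu L ψ x t c)
    (hψ : 0 ≤ ψ) (hψ1 : ψ ≤ 1) (hΛ : 2 ≤ Λ) (hL : 2 ≤ L) (hLt : L * √t ≤ 1) (hA₂ : 1 ≤ A₂)
    (hσ : 0 < σ) (hσ1 : σ ≤ 1 / 2)
    (h3 : Integrable (fun z => dist x z ^ 2) (kμ m p (Λ ^ 2 * t) x) ∧
      ∫ z, dist x z ^ 2 ∂(kμ m p (Λ ^ 2 * t) x) ≤ A₂ * (Λ * √t) ^ 2)
    {a : E n} (h4 : Integrable (fun z => ‖uh c (uu z) - a‖ ^ 2) (kμ m p (Λ ^ 2 * t) x) ∧
      ∫ z, ‖uh c (uu z) - a‖ ^ 2 ∂(kμ m p (Λ ^ 2 * t) x) ≤ A₂ * (Λ * √t) ^ 2)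
    (h6 : (kμ m p (Λ ^ 2 * t) x).real {z | (L - 2) * √t ≤ dist x z} ≤ σ)
    {q : M} (hq : dist x q ≤ 2 * √t) :
    ∃ b : ℝ, Integrable (fun z => (ww (1 / 2) q z - ww (1 / 2) x z)
        + ⟪uh c (uu z), uh c (uu q) - uh c (uu x)⟫_ℝ - b) (kμ m p (Λ ^ 2 * t) x) ∧
      ∫ z, |(ww (1 / 2) q z - ww (1 / 2) x z)
        + ⟪uh c (uu z), uh c (uu q) - uh c (uu x)⟫_ℝ - b| ∂(kμ m p (Λ ^ 2 * t) x)
        ≤ (ψ + 40 * Λ * √(A₂ * σ)) * t := by
  have hst : 0 < √t := Real.sqrt_pos.2 ht
  have hs2 : √t ^ 2 = t := Real.sq_sqrt ht.le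
  have hΛt : 0 < Λ ^ 2 * t := by positivity
  haveI := kμ_prob hp hΛt x
  have hq0 : 0 ≤ dist x q := dist_nonneg
  have hLL : 2 * √t ≤ L * √t := mul_le_mul_of_nonneg_right hL hst.le
  have hxx : dist x x ≤ L * √t := by rw [dist_self]; positivity
  have hm := near_iso (kμ m p (Λ ^ 2 * t) x) (x := x) (q := q) (R := (L - 2) * √t) (ψ := ψ * t)
    (r := Λ * √t) (D := dist x q) (A := A₂) (σ := σ) hA₂ hσ hσ1 hq0
    (hq.trans (mul_le_mul_of_nonneg_right hΛ hst.le)) (by positivity)
    (g := fun z => ww (1 / 2) q z - ww (1 / 2) x z) (û := fun z => uh c (uu z))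
    ((ww_cont q).sub (ww_cont x)).aestronglyMeasurable
    ((uh_cont c).comp hcont).aestronglyMeasurable ?_ (ww_sub_abs x q) h3.1 h3.2 h4.1 h4.2 ?_ h6 ?_
  · obtain ⟨b, hb1, hb2⟩ := hm
    refine ⟨b, hb1, hb2.trans ?_⟩
    have h8 : dist x q * (Λ * √t) ≤ 2 * √t * (Λ * √t) :=
      mul_le_mul_of_nonneg_right hq (by positivity)
    have e : 2 * √t * (Λ * √t) = 2 * Λ * t := by
      nth_rewrite 3 [← hs2]; ring
    rw [e] at h8
    have h9 : 20 * √(A₂ * σ) * (dist x q * (Λ * √t)) ≤ 20 * √(A₂ * σ) * (2 * Λ * t) :=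
      mul_le_mul_of_nonneg_left h8 (by positivity)
    linarith
  · -- (h1)
    intro z hz
    have hz' : dist x z ≤ L * √t := by
      have : (L - 2) * √t ≤ L * √t := mul_le_mul_of_nonneg_right (by linarith) hst.le
      linarith
    have hqz : dist q z ≤ L * √t := by
      have h9 : dist q z ≤ dist x q + dist x z := by
        rw [dist_comm x q]; exact dist_triangle _ _ _
      linarith
    have e : ww (1 / 2) q z - ww (1 / 2) x z = (dist q z ^ 2 - dist x z ^ 2) / 2 :=
      ww_sub_eq (hz'.trans hLt) (hqz.trans hLt)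
    have i1 := hN.ni q (hq.trans hLL) z hqz
    have i2 := hN.ni x hxx z hz'
    rw [← uh_norm, ← uh_sub] at i1 i2
    show |ww (1 / 2) q z - ww (1 / 2) x z - _| ≤ _
    rw [e]
    rw [abs_le] at i1 i2 ⊢
    constructor <;> linarith [i1.1, i1.2, i2.1, i2.2]
  · -- (h5)
    intro z hz
    have hz' : dist x z ≤ 3 * L * √t := by
      have : (L - 2) * √t ≤ 3 * L * √t := mul_le_mul_of_nonneg_right (by linarith) hst.le
      linarith
    have i1 := hN.li z x hz' (by rw [dist_self]; positivity)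
    rw [← uh_norm, ← uh_sub] at i1
    refine abs_le_of_sq_le_sq' ?_ (by positivity) |>.2
    refine i1.trans ?_
    rw [dist_comm z x, mul_pow]
    have : 0 ≤ dist x z ^ 2 := sq_nonneg _
    nlinarith
  · -- (h7)
    have hq' : dist x q ≤ 3 * L * √t := by
      have : 2 * √t ≤ 3 * L * √t := mul_le_mul_of_nonneg_right (by linarith) hst.le
      linarith
    have i1 := hN.li q x hq' (by rw [dist_self]; positivity)
    rw [← uh_norm, ← uh_sub] at i1
    refine abs_le_of_sq_le_sq' ?_ (by positivity) |>.2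
    refine i1.trans ?_
    rw [dist_comm q x, mul_pow]
    have : 0 ≤ dist x q ^ 2 := sq_nonneg _
    nlinarith

end

end Vale.Agent.P242.H155
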