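import Vale.Agent.P242.H155.T7b

/-! P242, package A-T7 (helper155): the step of the induction for (T), at one centre, second part. -/

set_option linter.all false

open MeasureTheory Filter Topology Set Metric
open scoped ENNReal NNReal InnerProductSpace

universe u

namespace Vale.Agent.P242.H155

open Vale.Agent.P233 Vale.Agent.P233.RA Vale.Agent.P242.H990 Vale.Agent.P242.H71
open Vale.Agent.P242.H520

noncomputable section

variable {M : Type u} [MetricSpace M] [MeasurableSpace M] [BorelSpace M] {m : Measure M} {n : ℕ}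
  {K : ℝ} {o : M} {A : ℝ} {p : ℝ → M → M → ℝ} {u : Fin n → M →ₘ[m] ℝ} {uu : M → E n}
  {s t : ℝ} {x : M}

/-- the step: (R1), (R2), near isometry and density give (T) for the time `s ≤ t` -/
theorem step_core (hh : FH m K p u) (hp : Ker0 m p) (hrep : ∀ i, ∀ᵐ x ∂m, u i x = uu x i)
    (hw2 : ∀ y, MemLp (cl m (ww (1 / 2) y)) 2 m)
    (hwa : ∀ y, ⇑(cl m (ww (1 / 2) y)) =ᵐ[m] ww (1 / 2) y)
    {L ψ Λ eN e1 e2 κ w : ℝ} {c : Fin n → E n}
    (ht : 0 < t) (hΛ : 2 ≤ Λ) (hL : 1 ≤ L) (hψ : 0 ≤ ψ) (hψ1 : ψ ≤ 1)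
    (hN : NearX m p u uu L ψ x t c)
    (hexp : ∀ q, dist x q ≤ 2 * √t → ∃ b : ℝ,
      Integrable (fun z => (ww (1 / 2) q z - ww (1 / 2) x z)
        + ⟪uh c (uu z), uh c (uu q) - uh c (uu x)⟫_ℝ - b) (kμ m p (Λ ^ 2 * t) x) ∧
      ∫ z, |(ww (1 / 2) q z - ww (1 / 2) x z)
        + ⟪uh c (uu z), uh c (uu q) - uh c (uu x)⟫_ℝ - b| ∂(kμ m p (Λ ^ 2 * t) x) ≤ eN * t)
    (hκ : 0 < κ)
    (hnd : ∀ (c : E n) (b : ℝ),
      κ * √t * √(Gm m p u t x c c) ≤ PP m p (Λ ^ 2 * t) x |uc u c - b • (1 : M →ₘ[m] ℝ)|)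
    (hs : 0 < s) (hst : s ≤ t)
    (hR : ∀ q, dist x q ≤ 2 * √t → ∃ (c : E n) (b : ℝ),
      PP m p (Λ ^ 2 * t) x
        |(bb m q (Λ ^ 2 * t) - bb m x (Λ ^ 2 * t)) - (b • (1 : M →ₘ[m] ℝ) + uc u c)| ≤ e1 * t ∧
      PP m p (Λ ^ 2 * t) x
        |(bb m q (Λ ^ 2 * t) - bb m x (Λ ^ 2 * t)) -
          (cl m (ww (1 / 2) q) - cl m (ww (1 / 2) x))| ≤ e2 * t ∧
      gm m K p u s x c c ≤ w)
    (hw : 0 ≤ w) (he1 : 0 ≤ e1) (he2 : 0 ≤ e2) (heN : 0 ≤ eN)
    (hsmall : n * ((e1 + e2 + eN) / κ + √ψ) ≤ 1 / 2) (d : E n) :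
    s * gm m K p u s x d d ≤ 4 * n ^ 2 * w * Gm m p u t x d d := by
  have hst0 : 0 < √t := Real.sqrt_pos.2 ht
  have hs2 : √t ^ 2 = t := Real.sq_sqrt ht.le
  have hΛt : 0 < Λ ^ 2 * t := by positivity
  haveI := kμ_prob hp hΛt x
  set μ := kμ m p (Λ ^ 2 * t) x with hμ
  have hD := hh.hC.toIsDir
  -- the points
  have hq : ∀ j : Fin n, ∃ q : M, dist x q ≤ 2 * √t ∧
      ‖(√t)⁻¹ • (uh c (uu q) - uh c (uu x)) - EuclideanSpace.basisFun (Fin n) ℝ j‖ ≤ √ψ := by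
    intro j
    have hsum : ∑ i, (if i = j then √t else 0) ^ 2 = t := by
      simp [ite_pow, hs2]
    obtain ⟨q, hq1, hq2⟩ := hN.de (fun i => if i = j then √t else 0) (by
      rw [hsum, mul_pow, hs2]
      nlinarith [one_le_pow₀ hL (n := 2)])
    rw [hsum] at hq1
    refine ⟨q, ?_, ?_⟩
    · refine abs_le_of_sq_le_sq' ?_ (by positivity) |>.2
      rw [mul_pow, hs2]
      nlinarith
    · have e1 : (√t)⁻¹ • (uh c (uu q) - uh c (uu x)) - EuclideanSpace.basisFun (Fin n) ℝ j =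
          (√t)⁻¹ • ((uh c (uu q) - uh c (uu x)) - √t • EuclideanSpace.basisFun (Fin n) ℝ j) := by
        rw [smul_sub, smul_sub, smul_smul, inv_mul_cancel₀ hst0.ne', one_smul, smul_sub]
      rw [e1, norm_smul, Real.norm_eq_abs, abs_of_nonneg (by positivity)]
      have e2 : ‖(uh c (uu q) - uh c (uu x)) - √t • EuclideanSpace.basisFun (Fin n) ℝ j‖ ^ 2 ≤
          (√ψ * √t) ^ 2 := by
        rw [mul_pow, Real.sq_sqrt hψ, hs2]
        refine le_trans (le_of_eq ?_) hq2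
        rw [uh_sub, EuclideanSpace.norm_sq_eq]
        refine Finset.sum_congr rfl fun i _ => ?_
        rw [Real.norm_eq_abs, sq_abs]
        simp [uh_apply, EuclideanSpace.basisFun_apply, Pi.single_apply]
      have e3 := abs_le_of_sq_le_sq' e2 (by positivity) |>.2
      calc (√t)⁻¹ * ‖(uh c (uu q) - uh c (uu x)) - √t • EuclideanSpace.basisFun (Fin n) ℝ j‖
          ≤ (√t)⁻¹ * (√ψ * √t) := mul_le_mul_of_nonneg_left e3 (by positivity)
        _ = √ψ := by field_simp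
  choose q hq1 hq2 using hq
  choose cR bR hR1 hR2 hR3 using fun j => hR (q j) (hq1 j)
  have hsurj := fS_surj (hh.GmL ht x) (c := c) (fun i j => by rw [hh.GmL_apply]; exact hN.fr i j)
  have hnorm := fS_norm (hh.GmL ht x) (c := c) (fun i j => by rw [hh.GmL_apply]; exact hN.fr i j)
  choose cv hcv using fun j => hsurj (cR j)
  -- the seminorm
  set B : E n →ₗ[ℝ] E n →ₗ[ℝ] ℝ := (s • hh.gmL hs x).compl₁₂ (fS c) (fS c) with hB
  have hBa : ∀ v v', B v v' = s * gm m K p u s x (fS c v) (fS c v') := fun v v' => rfl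
  have hBp : PSD B := ⟨fun v v' => by rw [hBa, hBa, hh.gm_symm], fun v => by
    rw [hBa]; exact mul_nonneg hs.le (hh.gm_nonneg hs _)⟩
  obtain ⟨v, hv⟩ := hsurj d
  have key := H196.T_core (EuclideanSpace.basisFun (Fin n) ℝ) (fsem B) ((ucL u).comp (fS c))
    (fun F => PP m p (Λ ^ 2 * t) x |F|) (1 : M →ₘ[m] ℝ) (a := 0) (c := fun j => (√t)⁻¹ • cv j)
    (v := fun j => (√t)⁻¹ • (uh c (uu (q j)) - uh c (uu x))) (c1 := κ * √t) (w := w)
    (s1 := (e1 + e2 + eN) / κ) (s2 := √ψ) (by positivity) hw (Real.sqrt_nonneg _) (by positivity)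
    ?_ ?_ hq2 ?_ hsmall v
  · rw [hBp.fsem_sq, hBa, hv] at key
    have h1 := hnorm v
    rw [hh.GmL_apply, hv] at h1
    rwa [← h1] at key
  · -- nondegeneracy
    intro v b
    have h1 := hnd (fS c v) b
    have h2 := hnorm v
    rw [hh.GmL_apply] at h2
    rw [h2, Real.sqrt_sq (norm_nonneg _)] at h1
    exact h1
  · -- near
    intro j
    obtain ⟨b', hb1, hb2⟩ := hexp (q j) (hq1 j)
    set W := uh c (uu (q j)) - uh c (uu x) with hW
    refine ⟨(√t)⁻¹ * (b' - bR j), ?_⟩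
    -- the two classes
    set g : M →ₘ[m] ℝ := cl m (ww (1 / 2) (q j)) - cl m (ww (1 / 2) x) with hg
    set Pg : M →ₘ[m] ℝ := bb m (q j) (Λ ^ 2 * t) - bb m x (Λ ^ 2 * t) with hPg
    have hPg2 : MemLp Pg 2 m := mem_sub (hD.P_mem2 _ (hw2 _)) (hD.P_mem2 _ (hw2 _))
    have hg2 : MemLp g 2 m := mem_sub (hw2 _) (hw2 _)
    have i2 : ∀ F : M →ₘ[m] ℝ, MemLp F 2 m → Integrable F μ := fun F hF =>
      (kμ_mem1 hp hΛt x F).1 (mem_mul_22 (ph_mem2 hp hΛt x) hF)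
    have hac := kμ_ac hp hΛt x
    have hone : ∀ b : ℝ, ∀ᵐ z ∂m, (b • (1 : M →ₘ[m] ℝ)) z = b := fun b => by
      filter_upwards [smul_ae (f := (1 : M →ₘ[m] ℝ)) b, AEEqFun.coeFn_one (μ := m) (β := ℝ)] with z a1 a2
      rw [a1, a2]; simp
    -- values of the classes
    have hFa : ∀ᵐ z ∂μ, (Pg - (bR j • (1 : M →ₘ[m] ℝ) + uc u (cR j)) : M →ₘ[m] ℝ) z =
        Pg z - (bR j + uc u (cR j) z) := by
      refine hac.ae_le ?_
      filter_upwards [sub_ae Pg (bR j • (1 : M →ₘ[m] ℝ) + uc u (cR j)),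
        add_ae (bR j • (1 : M →ₘ[m] ℝ)) (uc u (cR j)), hone (bR j)] with z a1 a2 a3
      rw [a1, a2, a3]
    have hFb : ∀ᵐ z ∂μ, (Pg - g : M →ₘ[m] ℝ) z =
        Pg z - (ww (1 / 2) (q j) z - ww (1 / 2) x z) := by
      refine hac.ae_le ?_
      filter_upwards [sub_ae Pg g, sub_ae (cl m (ww (1 / 2) (q j))) (cl m (ww (1 / 2) x)),
        hwa (q j), hwa x] with z a1 a2 a3 a4
      rw [a1, a2, a3, a4]
    have hG : ∀ᵐ z ∂μ, ((ucL u).comp (fS c) ((√t)⁻¹ • cv j + (√t)⁻¹ • W)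
        - ((√t)⁻¹ * (b' - bR j)) • (1 : M →ₘ[m] ℝ) : M →ₘ[m] ℝ) z =
        (√t)⁻¹ * (uc u (cR j) z + ⟪uh c (uu z), W⟫_ℝ - (b' - bR j)) := by
      have e1 : (ucL u).comp (fS c) ((√t)⁻¹ • cv j + (√t)⁻¹ • W) =
          (√t)⁻¹ • (uc u (cR j) + uc u (fS c W)) := by
        rw [← smul_add, map_smul, map_add, LinearMap.comp_apply, LinearMap.comp_apply, hcv]
        rfl
      rw [e1]
      refine hac.ae_le ?_
      filter_upwards [sub_ae ((√t)⁻¹ • (uc u (cR j) + uc u (fS c W)))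
          (((√t)⁻¹ * (b' - bR j)) • (1 : M →ₘ[m] ℝ)), hone ((√t)⁻¹ * (b' - bR j)),
          smul_ae (f := uc u (cR j) + uc u (fS c W)) (√t)⁻¹, add_ae (uc u (cR j)) (uc u (fS c W)),
          uc_rep hrep (fS c W)] with z a1 a2 a3 a4 a5
      rw [a1, a2, a3, a4, a5, ← inner_uh]
      ring
    -- integrals
    have q1 : PP m p (Λ ^ 2 * t) x |Pg - (bR j • (1 : M →ₘ[m] ℝ) + uc u (cR j))| =
        ∫ z, |Pg z - (bR j + uc u (cR j) z)| ∂μ := by
      show I (ph m p (Λ ^ 2 * t) x * |_|) = _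
      rw [kμ_Iabs hp hΛt]
      refine integral_congr_ae ?_
      filter_upwards [hFa] with z hz
      rw [hz]
    have q2 : PP m p (Λ ^ 2 * t) x |Pg - g| =
        ∫ z, |Pg z - (ww (1 / 2) (q j) z - ww (1 / 2) x z)| ∂μ := by
      show I (ph m p (Λ ^ 2 * t) x * |_|) = _
      rw [kμ_Iabs hp hΛt]
      refine integral_congr_ae ?_
      filter_upwards [hFb] with z hz
      rw [hz]
    show PP m p (Λ ^ 2 * t) x |(ucL u).comp (fS c) ((√t)⁻¹ • cv j + (√t)⁻¹ • W)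
        - ((√t)⁻¹ * (b' - bR j)) • (1 : M →ₘ[m] ℝ)| ≤ _
    have q3 : PP m p (Λ ^ 2 * t) x |(ucL u).comp (fS c) ((√t)⁻¹ • cv j + (√t)⁻¹ • W)
        - ((√t)⁻¹ * (b' - bR j)) • (1 : M →ₘ[m] ℝ)| =
        (√t)⁻¹ * ∫ z, |uc u (cR j) z + ⟪uh c (uu z), W⟫_ℝ - (b' - bR j)| ∂μ := by
      show I (ph m p (Λ ^ 2 * t) x * |_|) = _
      rw [kμ_Iabs hp hΛt, ← integral_const_mul]
      refine integral_congr_ae ?_
      filter_upwards [hG] with z hz
      rw [hz, abs_mul, abs_of_nonneg (by positivity : 0 ≤ (√t)⁻¹)]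
    rw [q3]
    have j1 : Integrable (fun z => Pg z - (bR j + uc u (cR j) z)) μ :=
      (i2 _ hPg2).sub ((integrable_const _).add (i2 _ (hh.mem2 _)))
    have j2 : Integrable (fun z => Pg z - (ww (1 / 2) (q j) z - ww (1 / 2) x z)) μ :=
      (i2 _ (mem_sub hPg2 hg2)).congr hFb
    have hle : ∫ z, |uc u (cR j) z + ⟪uh c (uu z), W⟫_ℝ - (b' - bR j)| ∂μ ≤
        ∫ z, (|(ww (1 / 2) (q j) z - ww (1 / 2) x z) + ⟪uh c (uu z), W⟫_ℝ - b'|
          + |Pg z - (ww (1 / 2) (q j) z - ww (1 / 2) x z)|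
          + |Pg z - (bR j + uc u (cR j) z)|) ∂μ := by
      have j3 : Integrable (fun z => uc u (cR j) z + ⟪uh c (uu z), W⟫_ℝ - (b' - bR j)) μ := by
        have := (hb1.add j2).sub j1
        refine this.congr (ae_of_all _ fun z => ?_)
        simp only [Pi.add_apply, Pi.sub_apply]
        ring
      refine integral_mono j3.abs ((hb1.abs.add j2.abs).add j1.abs) fun z => ?_
      simp only
      have e : uc u (cR j) z + ⟪uh c (uu z), W⟫_ℝ - (b' - bR j) =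
          ((ww (1 / 2) (q j) z - ww (1 / 2) x z) + ⟪uh c (uu z), W⟫_ℝ - b')
          + (Pg z - (ww (1 / 2) (q j) z - ww (1 / 2) x z)) - (Pg z - (bR j + uc u (cR j) z)) := by
        ring
      rw [e]
      exact (abs_sub _ _).trans (add_le_add (abs_add_le _ _) le_rfl)
    have j12 : Integrable (fun z => |(ww (1 / 2) (q j) z - ww (1 / 2) x z) + ⟪uh c (uu z), W⟫_ℝ - b'|
          + |Pg z - (ww (1 / 2) (q j) z - ww (1 / 2) x z)|) μ := hb1.abs.add j2.abs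
    rw [integral_add j12 j1.abs, integral_add hb1.abs j2.abs] at hle
    have k1 := hR1 j
    have k2 := hR2 j
    rw [q1] at k1
    rw [q2] at k2
    have hle2 : ∫ z, |uc u (cR j) z + ⟪uh c (uu z), W⟫_ℝ - (b' - bR j)| ∂μ ≤
        (e1 + e2 + eN) * t := by linarith
    calc (√t)⁻¹ * ∫ z, |uc u (cR j) z + ⟪uh c (uu z), W⟫_ℝ - (b' - bR j)| ∂μ
        ≤ (√t)⁻¹ * ((e1 + e2 + eN) * t) := mul_le_mul_of_nonneg_left hle2 (by positivity)
      _ = κ * √t * ((e1 + e2 + eN) / κ) := by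
          nth_rewrite 2 [← hs2]
          field_simp
  · -- (R2)
    intro j
    rw [hBp.fsem_sq, hBa, map_smul, hcv, hh.gm_smul hs, hh.gm_symm, hh.gm_smul hs]
    have h1 := hR3 j
    have e : s * ((√t)⁻¹ * ((√t)⁻¹ * gm m K p u s x (cR j) (cR j))) =
        s / t * gm m K p u s x (cR j) (cR j) := by
      have : (√t)⁻¹ * (√t)⁻¹ = t⁻¹ := by rw [← mul_inv, ← sq, hs2]
      rw [← mul_assoc (√t)⁻¹, this]
      field_simp
    rw [e]
    have h2 : s / t ≤ 1 := (div_le_one ht).2 hst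
    have h3 : 0 ≤ s / t := by positivity
    calc s / t * gm m K p u s x (cR j) (cR j) ≤ 1 * gm m K p u s x (cR j) (cR j) :=
          mul_le_mul_of_nonneg_right h2 (hh.gm_nonneg hs _)
      _ ≤ w := by rw [one_mul]; exact h1

end

end Vale.Agent.P242.H155
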