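import Vale.Agent.P242.H155.T7c
import Vale.Agent.P242.H358.Near
import Vale.Agent.P242.H597.EnvB
import Vale.Agent.P242.H744.Start
import Vale.Agent.P242.H744.NuD

/-! P242, package A-T7 (helper155): base of the induction and comparison of the forms. -/

set_option linter.all false

open MeasureTheory Filter Topology Set Metric
open scoped ENNReal NNReal InnerProductSpace

universe u

namespace Vale.Agent.P242.H155

open Vale.Agent.P233 Vale.Agent.P233.RA Vale.Agent.P242.H990 Vale.Agent.P242.H71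
open Vale.Agent.P242.H520

noncomputable section

variable {M : Type u} [MetricSpace M] [CompleteSpace M] [SecondCountableTopology M]
  [MeasurableSpace M] [BorelSpace M] {m : Measure M} {n : ℕ}
  {K : ℝ} {o : M} {A : ℝ} {p : ℝ → M → M → ℝ} {u : Fin n → M →ₘ[m] ℝ} {uu : M → H71.E n}
  {s t : ℝ} {x : M} {R Q η ρ : ℝ}

theorem fh_of (e : H71.Env m n K o A p) (hu : Cfg m n K o p R Q η ρ u uu) : FH m K p u :=
  ⟨H751.env_gamma e, H597.env_bei' e, H597.env_cen e, hu.test⟩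

/-- second moments of the normalised coordinates -/
theorem uh_moment (hh : FH m K p u) [m.IsOpenPosMeasure] (hp : Ker0 m p)
    (hrep : ∀ i, ∀ᵐ x ∂m, u i x = uu x i) (hs : 0 < s) {c : Fin n → H71.E n}
    (hg : ∀ i, Gm m p u s x (c i) (c i) ≤ 2) (hK : 2 * |K| * s ≤ 1) :
    ∃ a : H71.E n, Integrable (fun z => ‖uh c (uu z) - a‖ ^ 2) (kμ m p s x) ∧
      ∫ z, ‖uh c (uu z) - a‖ ^ 2 ∂(kμ m p s x) ≤ 12 * n * s := by
  haveI := kμ_prob hp hs x
  set μ := kμ m p s x with hμ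
  have hac := kμ_ac hp hs x
  set a : H71.E n := WithLp.toLp 2 fun i => ∫ z, uc u (c i) z ∂μ with ha
  have hai : ∀ i, a i = ∫ z, uc u (c i) z ∂μ := fun i => rfl
  have hv := fun i => var_le (s := s) hh.hC hh.hB hp hs (hh.test (c i)) x
  have hrep' : ∀ i, ∀ᵐ z ∂μ, uc u (c i) z = ⟪c i, uu z⟫_ℝ := fun i => hac.ae_le (uc_rep hrep (c i))
  have hint1 : ∀ i, Integrable (fun z => uc u (c i) z) μ := fun i =>
    (kμ_mem1 hp hs x _).1 (mem_mul_22 (ph_mem2 hp hs x) (hh.mem2 _))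
  have hint2 : ∀ i, Integrable (fun z => (uc u (c i) z - a i) ^ 2) μ := by
    intro i
    have h1 : Integrable (fun z => uc u (c i) z ^ 2 - 2 * a i * uc u (c i) z + a i ^ 2) μ :=
      ((hv i).1.sub ((hint1 i).const_mul _)).add (integrable_const _)
    exact h1.congr (ae_of_all _ fun z => by simp only; ring)
  have hval : ∀ i, ∫ z, (uc u (c i) z - a i) ^ 2 ∂μ ≤ 12 * s := by
    intro i
    have e1 : ∫ z, (uc u (c i) z - a i) ^ 2 ∂μ =
        ∫ z, uc u (c i) z ^ 2 ∂μ - (∫ z, uc u (c i) z ∂μ) ^ 2 := by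
      have e2 : ∫ z, (uc u (c i) z - a i) ^ 2 ∂μ =
          ∫ z, (uc u (c i) z ^ 2 - 2 * a i * uc u (c i) z + a i ^ 2) ∂μ :=
        integral_congr_ae (ae_of_all _ fun z => by simp only; ring)
      have i1 : Integrable (fun z => uc u (c i) z ^ 2 - 2 * a i * uc u (c i) z) μ :=
        (hv i).1.sub ((hint1 i).const_mul _)
      rw [e2, integral_add i1 (integrable_const _), integral_sub (hv i).1 ((hint1 i).const_mul _),
        integral_const_mul, integral_const, probReal_univ, one_smul, ← hai i]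
      ring
    rw [e1]
    refine (hv i).2.trans ?_
    have h1 : PP m p s x ((sob m).Γ (uc u (c i)) (uc u (c i))) ≤ 2 := hg i
    have h2 : Real.exp (2 * |(-|K|)| * s) ≤ 3 := by
      rw [abs_neg, abs_abs]
      calc Real.exp (2 * |K| * s) ≤ Real.exp 1 := Real.exp_le_exp.2 hK
        _ ≤ 3 := by linarith [Real.exp_one_lt_d9]
    have h3 : 0 ≤ PP m p s x ((sob m).Γ (uc u (c i)) (uc u (c i))) := hh.Gm_nonneg hs (c i)
    calc 2 * s * Real.exp (2 * |(-|K|)| * s) * PP m p s x ((sob m).Γ (uc u (c i)) (uc u (c i)))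
        ≤ 2 * s * 3 * 2 := by
          refine mul_le_mul (mul_le_mul_of_nonneg_left h2 (by positivity)) h1 h3 (by positivity)
      _ = 12 * s := by ring
  have hsum : ∀ᵐ z ∂μ, ‖uh c (uu z) - a‖ ^ 2 = ∑ i, (uc u (c i) z - a i) ^ 2 := by
    filter_upwards [ae_all_iff.2 hrep'] with z hz
    rw [EuclideanSpace.norm_sq_eq]
    refine Finset.sum_congr rfl fun i _ => ?_
    rw [hz i, Real.norm_eq_abs, sq_abs]
    rfl
  refine ⟨a, ?_, ?_⟩
  · exact (integrable_finset_sum Finset.univ fun i _ => hint2 i).congr (hsum.mono fun z hz => hz.symm)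
  · rw [integral_congr_ae hsum, integral_finset_sum _ fun i _ => hint2 i]
    calc ∑ i, ∫ z, (uc u (c i) z - a i) ^ 2 ∂μ ≤ ∑ i : Fin n, 12 * s :=
          Finset.sum_le_sum fun i _ => hval i
      _ = 12 * n * s := by
          rw [Finset.sum_const, Finset.card_univ, Fintype.card_fin, nsmul_eq_mul]; ring

/-- comparison of the forms at two times from `PreX` -/
theorem Gm_close (hh : FH m K p u) (hp : Ker0 m p) {L e : ℝ} (hP : H358.PreX m p L e ρ u uu x t)
    (ht : 0 < t) (hs : 0 < s) (h1 : t / L ^ 2 ≤ s) (h2 : s ≤ L ^ 2 * t) (c : H71.E n) :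
    |Gm m p u s x c c - Gm m p u t x c c| ≤ e * Gm m p u t x c c := by
  haveI := kμ_prob hp hs x
  have h3 := hP.av s h1 h2 c c
  have hG0 : 0 ≤ Gm m p u t x c c := hh.Gm_nonneg ht c
  rw [Real.mul_self_sqrt hG0] at h3
  refine le_trans ?_ h3
  set g := Gm m p u t x c c with hg
  show _ ≤ I (ph m p s x * |_|)
  rw [kμ_Iabs hp hs]
  have hac := kμ_ac hp hs x
  have e1 : ∀ᵐ z ∂(kμ m p s x), ((sob m).Γ (uc u c) (uc u c) - g • (1 : M →ₘ[m] ℝ) : M →ₘ[m] ℝ) z =
      (sob m).Γ (uc u c) (uc u c) z - g := by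
    refine hac.ae_le ?_
    filter_upwards [sub_ae ((sob m).Γ (uc u c) (uc u c)) (g • (1 : M →ₘ[m] ℝ)),
      smul_ae (f := (1 : M →ₘ[m] ℝ)) g, AEEqFun.coeFn_one (μ := m) (β := ℝ)] with z a1 a2 a3
    rw [a1, a2, a3]; simp
  have e2 : Gm m p u s x c c - g = ∫ z, ((sob m).Γ (uc u c) (uc u c) z - g) ∂(kμ m p s x) := by
    have i1 : Integrable (fun z => (sob m).Γ (uc u c) (uc u c) z) (kμ m p s x) :=
      (kμ_mem1 hp hs x _).1 (hh.φΓ1 hs c c)
    rw [integral_sub i1 (integrable_const _), integral_const, probReal_univ, one_smul,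
      Gm_def, kμ_I hp hs]
  rw [e2]
  refine (abs_integral_le_integral_abs).trans (le_of_eq ?_)
  refine integral_congr_ae ?_
  filter_upwards [e1] with z hz
  rw [hz]

/-- **base of the induction** -/
theorem base_T (e : H71.Env m n K o A p) (hQ : 1 ≤ Q) (hQA : 2 * A ≤ Q) {L ε : ℝ} (hL : 1 ≤ L)
    (hε : 0 < ε) : ∃ η₁ : ℝ, 0 < η₁ ∧ ∀ (R η ρ : ℝ) (u : Fin n → M →ₘ[m] ℝ) (uu : M → H71.E n),
      0 < η → η ≤ η₁ → Cfg m n K o p R Q η ρ u uu → ∀ x ∈ ball o (R * ρ),
        TTx m K p Q ε ρ u x (ρ ^ 2 / L) := by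
  obtain ⟨C, hC, hgm⟩ := H744.gm_top e hQ hQA hL
  set D : ℝ := 1 + 2 * C + 12 * n with hD
  have hD1 : 0 < D := by positivity
  refine ⟨min (1 / (2 * D)) (ε / (2 * Q * C)), by positivity, ?_⟩
  intro R η ρ u uu hη hη1 hu x hx s hs1 hs2 c
  have hρ := hu.ρ_pos
  have hρ2 : 0 < ρ ^ 2 := by positivity
  have hs : 0 < s := lt_of_lt_of_le (by positivity) hs1
  have hηD : D * η ≤ 1 / 2 := by
    have := hη1.trans (min_le_left _ _)
    rw [le_div_iff₀ (by positivity)] at this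
    linarith
  have hηε : 2 * Q * C * η ≤ ε := by
    have := hη1.trans (min_le_right _ _)
    rw [le_div_iff₀ (by positivity)] at this
    linarith
  -- lower bound for `G`
  have hG : 1 / 2 * ‖c‖ ^ 2 ≤ Gm m p u s x c c := by
    have hc2 : 0 ≤ ‖c‖ ^ 2 := sq_nonneg _
    rcases le_total (ρ ^ 2 / Q) s with h1 | h1
    · have h2 := H597.G_top hu hQ hx h1 hs2 c
      have h3 : η ≤ D * η := by
        have : 1 ≤ D := by rw [hD]; nlinarith [Nat.cast_nonneg (α := ℝ) n]
        nlinarith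
      nlinarith
    · set T := ρ ^ 2 / Q with hT
      have hTρ : T ≤ ρ ^ 2 := div_le_self hρ2.le hQ
      have hTQ : T ≤ Q * ρ ^ 2 := hTρ.trans (le_mul_of_one_le_left hρ2.le hQ)
      have h2 := H597.G_top hu hQ hx (le_refl T) hTQ c
      have hder : ∀ r ∈ Icc s T, HasDerivWithinAt (fun r => Gm m p u r x c c)
          (2 * gm m K p u r x c c + 2 * PP m p r x ((sob m).Γ (uc u c) ((sob m).lap (uc u c)))
            + 2 * (-|K|) * Gm m p u r x c c) (Icc s T) r := fun r hr =>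
        (H597.hasDeriv_Gm e hu x c (hs.trans_le hr.1)).hasDerivWithinAt
      have hbd : ∀ r ∈ Icc s T, ‖2 * gm m K p u r x c c
          + 2 * PP m p r x ((sob m).Γ (uc u c) ((sob m).lap (uc u c)))
            + 2 * (-|K|) * Gm m p u r x c c‖ ≤ (2 * C + 12 * n) * η * ‖c‖ ^ 2 / ρ ^ 2 := by
        intro r hr
        have hr0 : 0 < r := hs.trans_le hr.1
        have k1 := hgm R η ρ u uu hu x hx r (hs1.trans hr.1) (hr.2.trans hTQ) c
        have k2 := H597.deriv_near e hu x c hr0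
        have k3 := H597.Er_le' e hu hx hr0 (hr.2.trans hTQ) hη.le c
        have k4 := H597.gm_nonneg e hu x c hr0
        rw [Real.norm_eq_abs, add_assoc]
        refine (abs_add_le _ _).trans ?_
        rw [abs_of_nonneg (by positivity : 0 ≤ 2 * gm m K p u r x c c)]
        refine (add_le_add (mul_le_mul_of_nonneg_left k1 (by norm_num)) (k2.trans k3)).trans
          (le_of_eq ?_)
        field_simp
      have h3 := Convex.norm_image_sub_le_of_norm_hasDerivWithin_le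
        (f := fun r => Gm m p u r x c c) hder hbd (convex_Icc s T) (left_mem_Icc.2 h1)
        (right_mem_Icc.2 h1)
      rw [Real.norm_eq_abs, Real.norm_eq_abs, abs_of_nonneg (by linarith : 0 ≤ T - s)] at h3
      have h4 : (2 * C + 12 * n) * η * ‖c‖ ^ 2 / ρ ^ 2 * (T - s) ≤
          (2 * C + 12 * n) * η * ‖c‖ ^ 2 := by
        have h5 : (2 * C + 12 * n) * η * ‖c‖ ^ 2 / ρ ^ 2 * (T - s) ≤
            (2 * C + 12 * n) * η * ‖c‖ ^ 2 / ρ ^ 2 * ρ ^ 2 :=
          mul_le_mul_of_nonneg_left (by linarith) (by positivity)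
        refine h5.trans (le_of_eq ?_)
        field_simp
      have h5 := (abs_le.1 (h3.trans h4)).2
      have h6 : (D * η) * ‖c‖ ^ 2 ≤ 1 / 2 * ‖c‖ ^ 2 := mul_le_mul_of_nonneg_right hηD hc2
      have h7 : (D * η) * ‖c‖ ^ 2 = η * ‖c‖ ^ 2 + (2 * C + 12 * n) * η * ‖c‖ ^ 2 := by
        rw [hD]; ring
      linarith
  have h1 := hgm R η ρ u uu hu x hx s hs1 hs2 c
  have h2 : s * gm m K p u s x c c ≤ Q * ρ ^ 2 * (C * η * ‖c‖ ^ 2 / ρ ^ 2) :=
    mul_le_mul hs2 h1 (H597.gm_nonneg e hu x c hs) (by positivity)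
  have h3 : Q * ρ ^ 2 * (C * η * ‖c‖ ^ 2 / ρ ^ 2) = (2 * Q * C * η) * (1 / 2 * ‖c‖ ^ 2) := by
    field_simp
  rw [h3] at h2
  refine h2.trans ?_
  exact mul_le_mul hηε hG (by positivity) hε.le

end

end Vale.Agent.P242.H155
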