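import Vale.Agent.P242.H155.T7d

/-! P242, package A-T7 (helper155): the step of the induction in the frozen vocabulary, and
`Blk_T` from near isometry, nondegeneracy and (R1), (R2). -/

set_option linter.all false

open MeasureTheory Filter Topology Set Metric
open scoped ENNReal NNReal InnerProductSpace

universe u

namespace Vale.Agent.P242.H155

open Vale.Agent.P233 Vale.Agent.P233.RA Vale.Agent.P242.H990 Vale.Agent.P242.H71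
open Vale.Agent.P242.H520

noncomputable section

variable {M : Type u} [MetricSpace M] [CompleteSpace M] [SecondCountableTopology M]
  [MeasurableSpace M] [BorelSpace M] {m : Measure M} {n : ℕ}
  {K : ℝ} {o : M} {A : ℝ} {p : ℝ → M → M → ℝ} {u : Fin n → M →ₘ[m] ℝ} {uu : M → H71.E n}
  {s t : ℝ} {x : M} {R Q η ρ : ℝ}

theorem env_w (e : H71.Env m n K o A p) (y : M) : MemLp (cl m (ww (1 / 2) y)) 2 m ∧
    ⇑(cl m (ww (1 / 2) y)) =ᵐ[m] ww (1 / 2) y := by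
  obtain ⟨⟨θ, hN⟩, hC, _, _, _⟩ := H924.facts e.hyp
  exact ⟨hC.memLp _ (H924.wy_A hN y).1, H924.wy_ae y⟩

/-- **the step of the induction**, at one centre -/
theorem step_at (e : H71.Env m n K o A p) (hu : Cfg m n K o p R Q η ρ u uu)
    {Λ L ψ κ σ B D₀ A₂ A₀ ε : ℝ} (hQ : 1 ≤ Q)
    (hΛ : 2 ≤ Λ) (hL : 2 ≤ L) (hψ : 0 ≤ ψ) (hψ1 : ψ ≤ 1) (hκ : 0 < κ) (hB : 0 ≤ B) (hD₀ : 0 ≤ D₀)
    (hσ : 0 < σ) (hσ1 : σ ≤ 1 / 2) (hA₂ : 1 ≤ A₂) (hA₂n : 12 * n ≤ A₂)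
    (hA₂c : cG n A (4 * A ^ 2) 0 * cW A 2 * Real.exp (2 * A) ≤ A₂)
    (htail : cG n A (4 * A ^ 2) 0 * Real.exp (2 * A) *
      Real.exp (-((L - 2) ^ 2 / (2 * A * Λ ^ 2))) ≤ σ)
    (hx : dist x o ≤ 1) (ht : 0 < t)
    (hLt : L * √t ≤ 1) (h4A : 4 * A ^ 2 * (Λ ^ 2 * t) ≤ 1 / 2) (hKt : 2 * |K| * (Λ ^ 2 * t) ≤ 1)
    (hT : TTx m K p Q ε ρ u x t)
    (hN : ∃ c : Fin n → H71.E n, NearX m p u uu L ψ x t c)
    (hP : H358.PreX m p Λ (1 / 2) ρ u uu x t)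
    (hNd : ∀ (c : H71.E n) (b : ℝ),
      κ * √t * √(Gm m p u t x c c) ≤ PP m p (Λ ^ 2 * t) x |uc u c - b • (1 : M →ₘ[m] ℝ)|)
    (hR : ∀ q, dist x q ≤ 2 * √t → ∃ (c : H71.E n) (b : ℝ),
      PP m p (Λ ^ 2 * t) x
        |(bb m q (Λ ^ 2 * t) - bb m x (Λ ^ 2 * t)) - (b • (1 : M →ₘ[m] ℝ) + uc u c)| ≤
          B * √(Dt m n K p Q A₀ ρ t x + Dt m n K p Q A₀ ρ t q) * t ∧
      PP m p (Λ ^ 2 * t) x
        |(bb m q (Λ ^ 2 * t) - bb m x (Λ ^ 2 * t)) -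
          (cl m (ww (1 / 2) q) - cl m (ww (1 / 2) x))| ≤
          B * (Dt m n K p Q A₀ ρ t x + Dt m n K p Q A₀ ρ t q) * t ∧
      ∀ s, t / Λ ^ 2 ≤ s → s ≤ t →
        gm m K p u s x c c ≤ B * (Dt m n K p Q A₀ ρ t x + Dt m n K p Q A₀ ρ t q))
    (hD : ∀ q, dist x q ≤ 2 * √t → Dt m n K p Q A₀ ρ t q ≤ D₀)
    (hs1 : n * ((B * √(2 * D₀) + B * (2 * D₀) + (ψ + 40 * Λ * √(A₂ * σ))) / κ + √ψ) ≤ 1 / 2)
    (hs2 : 8 * n ^ 2 * (B * (2 * D₀)) ≤ ε) :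
    TTx m K p Q ε ρ u x (t / Λ ^ 2) := by
  haveI := e.hyp.full
  have hA := e.kb.one_le
  have hA0 := e.kb.pos
  have hh : FH m K p u := fh_of e hu
  have hp := e.ker
  have hst : 0 < √t := Real.sqrt_pos.2 ht
  have hs2t : √t ^ 2 = t := Real.sq_sqrt ht.le
  have hΛ0 : 0 < Λ := by linarith
  have hΛ1 : 1 ≤ Λ ^ 2 := one_le_pow₀ (by linarith)
  have hΛt : 0 < Λ ^ 2 * t := by positivity
  have htt : t ≤ Λ ^ 2 * t := le_mul_of_one_le_left ht.le hΛ1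
  intro s h1 h2 d
  have hs : 0 < s := lt_of_lt_of_le (by positivity) h1
  rcases le_total t s with h3 | h3
  · exact hT s h3 h2 d
  -- the interesting case `s ≤ t`
  obtain ⟨c, hN⟩ := hN
  have hex : Real.exp (2 * A * dist x o) ≤ Real.exp (2 * A) := by
    apply Real.exp_le_exp.2
    nlinarith
  have hcG : 0 < cG n A (4 * A ^ 2) 0 := cG_pos hA (by positivity)
  have hcW : 0 < cW A 2 := cW_pos
  have hΛe : (Λ * √t) ^ 2 = Λ ^ 2 * t := by rw [mul_pow, hs2t]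
  -- moments
  have m3 : Integrable (fun z => dist x z ^ 2) (kμ m p (Λ ^ 2 * t) x) ∧
      ∫ z, dist x z ^ 2 ∂(kμ m p (Λ ^ 2 * t) x) ≤ A₂ * (Λ * √t) ^ 2 := by
    obtain ⟨i1, i2⟩ := dist_sq hp e.kb hΛt h4A x
    refine ⟨i1, i2.trans ?_⟩
    rw [hΛe]
    refine mul_le_mul_of_nonneg_right ?_ hΛt.le
    exact (mul_le_mul_of_nonneg_left hex (by positivity)).trans hA₂c
  have hg2 : ∀ i, Gm m p u (Λ ^ 2 * t) x (c i) (c i) ≤ 2 := by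
    intro i
    have k1 := Gm_close hh hp hP ht hΛt ((div_le_self ht.le hΛ1).trans htt) le_rfl (c i)
    have k2 := hN.fr i i
    rw [if_pos rfl] at k2
    rw [k2] at k1
    have := (abs_le.1 k1).2
    linarith
  obtain ⟨a, m4, m4'⟩ := uh_moment hh hp hu.rep hΛt hg2 hKt
  have m4'' : ∫ z, ‖uh c (uu z) - a‖ ^ 2 ∂(kμ m p (Λ ^ 2 * t) x) ≤ A₂ * (Λ * √t) ^ 2 := by
    rw [hΛe]
    exact m4'.trans (mul_le_mul_of_nonneg_right hA₂n hΛt.le)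
  have m6 : (kμ m p (Λ ^ 2 * t) x).real {z | (L - 2) * √t ≤ dist x z} ≤ σ := by
    have k1 := tail_mass hp e.kb hΛt h4A x (R := (L - 2) * √t) (by nlinarith)
    refine k1.trans (le_trans ?_ htail)
    have e1 : ((L - 2) * √t) ^ 2 / (2 * A * (Λ ^ 2 * t)) = (L - 2) ^ 2 / (2 * A * Λ ^ 2) := by
      rw [mul_pow, hs2t]
      field_simp
    rw [e1]
    refine mul_le_mul_of_nonneg_right ?_ (Real.exp_pos _).le
    exact mul_le_mul_of_nonneg_left hex hcG.le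
  have hexp : ∀ q, dist x q ≤ 2 * √t → ∃ b : ℝ,
      Integrable (fun z => (ww (1 / 2) q z - ww (1 / 2) x z)
        + ⟪uh c (uu z), uh c (uu q) - uh c (uu x)⟫_ℝ - b) (kμ m p (Λ ^ 2 * t) x) ∧
      ∫ z, |(ww (1 / 2) q z - ww (1 / 2) x z)
        + ⟪uh c (uu z), uh c (uu q) - uh c (uu x)⟫_ℝ - b| ∂(kμ m p (Λ ^ 2 * t) x)
        ≤ (ψ + 40 * Λ * √(A₂ * σ)) * t := fun q hq =>
    near_expand hp ht hu.cont hN hψ hψ1 hΛ hL hLt hA₂ hσ hσ1 m3 ⟨m4, m4''⟩ m6 hq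
  have hxx : dist x x ≤ 2 * √t := by rw [dist_self]; positivity
  have hDx := hD x hxx
  have key := step_core hh hp hu.rep (fun y => (env_w e y).1) (fun y => (env_w e y).2)
    (L := L) (ψ := ψ) (Λ := Λ) (eN := ψ + 40 * Λ * √(A₂ * σ)) (e1 := B * √(2 * D₀))
    (e2 := B * (2 * D₀)) (κ := κ) (w := B * (2 * D₀)) (c := c) (s := s)
    ht hΛ (by linarith) hψ hψ1 hN hexp hκ hNd hs h3 ?_ (by positivity) (by positivity)
    (by positivity) (by positivity) hs1 d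
  · have k1 := Gm_close hh hp hP ht hs h1 (h3.trans htt) d
    have k2 : 1 / 2 * Gm m p u t x d d ≤ Gm m p u s x d d := by
      have := (abs_le.1 k1).1
      linarith
    have hG0 : 0 ≤ Gm m p u t x d d := hh.Gm_nonneg ht d
    have hGs : 0 ≤ Gm m p u s x d d := hh.Gm_nonneg hs d
    have hw0 : 0 ≤ 8 * (n : ℝ) ^ 2 * (B * (2 * D₀)) := by positivity
    calc s * gm m K p u s x d d ≤ 4 * n ^ 2 * (B * (2 * D₀)) * Gm m p u t x d d := key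
      _ = 8 * n ^ 2 * (B * (2 * D₀)) * (1 / 2 * Gm m p u t x d d) := by ring
      _ ≤ 8 * n ^ 2 * (B * (2 * D₀)) * Gm m p u s x d d := mul_le_mul_of_nonneg_left k2 hw0
      _ ≤ ε * Gm m p u s x d d := mul_le_mul_of_nonneg_right hs2 hGs
  · intro q hq
    obtain ⟨cR, bR, k1, k2, k3⟩ := hR q hq
    have hDq := hD q hq
    have hDD : Dt m n K p Q A₀ ρ t x + Dt m n K p Q A₀ ρ t q ≤ 2 * D₀ := by linarith
    refine ⟨cR, bR, k1.trans ?_, k2.trans ?_, (k3 s h1 h3).trans ?_⟩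
    · exact mul_le_mul_of_nonneg_right
        (mul_le_mul_of_nonneg_left (Real.sqrt_le_sqrt hDD) hB) ht.le
    · exact mul_le_mul_of_nonneg_right (mul_le_mul_of_nonneg_left hDD hB) ht.le
    · exact mul_le_mul_of_nonneg_left hDD hB

/-- choice of the radius -/
theorem exists_radius {C a σ L₀ : ℝ} (hC : 0 < C) (ha : 0 < a) (hσ : 0 < σ) :
    ∃ L, L₀ ≤ L ∧ 2 ≤ L ∧ C * Real.exp (-((L - 2) ^ 2 / a)) ≤ σ := by
  set y : ℝ := max (max 1 L₀) (C * a / σ) with hy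
  have y1 : 1 ≤ y := (le_max_left _ _).trans (le_max_left _ _)
  have y2 : L₀ ≤ y := (le_max_right _ _).trans (le_max_left _ _)
  have y3 : C * a / σ ≤ y := le_max_right _ _
  refine ⟨y + 2, by linarith, by linarith, ?_⟩
  have e1 : y + 2 - 2 = y := by ring
  rw [e1]
  have h1 : y ≤ y ^ 2 := by nlinarith
  have h2 : C / σ ≤ y ^ 2 / a := by
    rw [div_le_div_iff₀ hσ ha]
    rw [div_le_iff₀ hσ] at y3
    nlinarith
  have h3 : y ^ 2 / a + 1 ≤ Real.exp (y ^ 2 / a) := Real.add_one_le_exp _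
  have h4 : C / σ ≤ Real.exp (y ^ 2 / a) := by linarith
  rw [Real.exp_neg, ← div_eq_mul_inv, div_le_iff₀ (Real.exp_pos _)]
  rw [div_le_iff₀ hσ] at h4
  linarith

end

/-- smallness of the error of the step -/
theorem const_small {n κ B A₀ ψ Λ A₂ σ : ℝ} (hn : 0 < n) (hκ : 0 < κ) (hB0 : 0 < B)
    (A0pos : 0 < A₀) (A02 : A₀ ≤ (κ / (16 * n) / (2 * B)) ^ 2) (A03 : A₀ ≤ κ / (16 * n) / (4 * B))
    (ψ2 : ψ ≤ κ / (16 * n)) (ψ4 : √ψ ≤ 1 / (8 * n)) (σ2 : 40 * Λ * √(A₂ * σ) ≤ κ / (16 * n)) :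
    n * ((B * √(2 * (2 * A₀)) + B * (2 * (2 * A₀)) + (ψ + 40 * Λ * √(A₂ * σ))) / κ + √ψ)
      ≤ 1 / 2 := by
  set g₁ : ℝ := κ / (16 * n) with hg₁
  have g10 : 0 < g₁ := by positivity
  have h1 : √(2 * (2 * A₀)) ≤ g₁ / B := by
    rw [Real.sqrt_le_left (by positivity)]
    have : 2 * (2 * A₀) ≤ 4 * (g₁ / (2 * B)) ^ 2 := by linarith
    refine this.trans (le_of_eq ?_)
    field_simp
    norm_num
  have h2 : B * √(2 * (2 * A₀)) ≤ g₁ := by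
    calc B * √(2 * (2 * A₀)) ≤ B * (g₁ / B) := mul_le_mul_of_nonneg_left h1 hB0.le
      _ = g₁ := by field_simp
  have h3 : B * (2 * (2 * A₀)) ≤ g₁ := by
    rw [le_div_iff₀ (by positivity)] at A03
    linarith
  have h4 : (B * √(2 * (2 * A₀)) + B * (2 * (2 * A₀)) + (ψ + 40 * Λ * √(A₂ * σ))) / κ ≤
      1 / (4 * n) := by
    rw [div_le_iff₀ hκ]
    have h5 : 1 / (4 * n) * κ = 4 * g₁ := by rw [hg₁]; field_simp; norm_num
    rw [h5]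
    linarith
  have h6 : (B * √(2 * (2 * A₀)) + B * (2 * (2 * A₀)) + (ψ + 40 * Λ * √(A₂ * σ))) / κ + √ψ ≤
      1 / (4 * n) + 1 / (8 * n) := add_le_add h4 ψ4
  have h7 : n * (1 / (4 * n) + 1 / (8 * n)) = 3 / 8 := by field_simp; norm_num
  have h8 := mul_le_mul_of_nonneg_left h6 hn.le
  linarith

section

variable {M : Type u} [MetricSpace M] [CompleteSpace M] [SecondCountableTopology M]
  [MeasurableSpace M] [BorelSpace M] {m : Measure M} {n : ℕ}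
  {K : ℝ} {o : M} {A : ℝ} {p : ℝ → M → M → ℝ} {u : Fin n → M →ₘ[m] ℝ} {uu : M → H71.E n}
  {R Q η ρ : ℝ}

/-- the induction over the scales -/
theorem induct_T (e : H71.Env m n K o A p) (hu : Cfg m n K o p R Q η ρ u uu) {Λ M₀ ε' ε : ℝ}
    (hΛ : 2 ≤ Λ) (hM₀ : 1 ≤ M₀) (hee : ε' ≤ ε)
    (hbase : ∀ x ∈ ball o (R / 2 * ρ), TTx m K p Q ε' ρ u x (ρ ^ 2 / M₀))
    (hstep : ∀ x ∈ ball o (R / 2 * ρ), ∀ t, 0 < t → M₀ * t ≤ ρ ^ 2 →
      TTx m K p Q ε' ρ u x t → TTx m K p Q ε' ρ u x (t / Λ ^ 2)) :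
    TT m K o p (R / 2) Q ε ρ u := by
  have hρ := hu.ρ_pos
  have hρ2 : 0 < ρ ^ 2 := by positivity
  have hM0 : 0 < M₀ := by linarith
  have hΛ0 : 0 < Λ := by linarith
  have hΛ1 : (1 : ℝ) ≤ Λ := by linarith
  have hall : ∀ x ∈ ball o (R / 2 * ρ), ∀ k : ℕ, TTx m K p Q ε' ρ u x (ρ ^ 2 / M₀ / (Λ ^ 2) ^ k) := by
    intro x hx k
    induction k with
    | zero =>
      rw [pow_zero, div_one]
      exact hbase x hx
    | succ k ih =>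
      have h1 := hstep x hx (ρ ^ 2 / M₀ / (Λ ^ 2) ^ k) (by positivity) ?_ ih
      · rwa [div_div, ← pow_succ] at h1
      · have h2 : ρ ^ 2 / M₀ / (Λ ^ 2) ^ k ≤ ρ ^ 2 / M₀ :=
          div_le_self (by positivity) (one_le_pow₀ (one_le_pow₀ hΛ1))
        calc M₀ * (ρ ^ 2 / M₀ / (Λ ^ 2) ^ k) ≤ M₀ * (ρ ^ 2 / M₀) :=
              mul_le_mul_of_nonneg_left h2 hM0.le
          _ = ρ ^ 2 := by field_simp
  intro x hx s hs hsQ c
  obtain ⟨k, hk⟩ := exists_pow_lt_of_lt_one (show 0 < s * M₀ / ρ ^ 2 by positivity)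
    (show (Λ ^ 2)⁻¹ < 1 from inv_lt_one_of_one_lt₀ (by nlinarith))
  have h1 : ρ ^ 2 / M₀ / (Λ ^ 2) ^ k ≤ s := by
    rw [inv_pow] at hk
    have h2 : ρ ^ 2 / M₀ / (Λ ^ 2) ^ k = ρ ^ 2 / M₀ * ((Λ ^ 2) ^ k)⁻¹ := by rw [div_eq_mul_inv]
    rw [h2]
    calc ρ ^ 2 / M₀ * ((Λ ^ 2) ^ k)⁻¹ ≤ ρ ^ 2 / M₀ * (s * M₀ / ρ ^ 2) :=
          mul_le_mul_of_nonneg_left hk.le (by positivity)
      _ = s := by field_simp
  have h2 := hall x hx k s h1 hsQ c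
  have h3 : 0 ≤ Gm m p u s x c c := (fh_of e hu).Gm_nonneg hs c
  exact h2.trans (mul_le_mul_of_nonneg_right hee h3)

/-- smallness of the scale -/
theorem scale_small {K A L Λ ρ t : ℝ} (hA : 0 < A) (hL : 0 < L) (hΛ : 0 < Λ) (hρ : 0 < ρ)
    (ht : 0 < t) (htρ : t ≤ ρ ^ 2) (hρ1 : ρ ≤ 1)
    (t5 : ρ ≤ min (1 / L) (min (1 / (4 * A * Λ)) (1 / (2 * (|K| + 1) * Λ ^ 2)))) :
    L * √t ≤ 1 ∧ 4 * A ^ 2 * (Λ ^ 2 * t) ≤ 1 / 2 ∧ 2 * |K| * (Λ ^ 2 * t) ≤ 1 := by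
  have h0 := abs_nonneg K
  have ρa : L * ρ ≤ 1 := by
    have := t5.trans (min_le_left _ _)
    rw [le_div_iff₀ hL] at this
    linarith
  have ρb : 4 * A * Λ * ρ ≤ 1 := by
    have := t5.trans ((min_le_right _ _).trans (min_le_left _ _))
    rw [le_div_iff₀ (by positivity)] at this
    linarith
  have ρc : 2 * (|K| + 1) * Λ ^ 2 * ρ ≤ 1 := by
    have := t5.trans ((min_le_right _ _).trans (min_le_right _ _))
    rw [le_div_iff₀ (by positivity)] at this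
    linarith
  have hsρ : √t ≤ ρ := by
    rw [Real.sqrt_le_left hρ.le]; exact htρ
  have htρ1 : t ≤ ρ := by nlinarith
  refine ⟨?_, ?_, ?_⟩
  · calc L * √t ≤ L * ρ := mul_le_mul_of_nonneg_left hsρ hL.le
      _ ≤ 1 := ρa
  · have h1 : (4 * A * Λ * ρ) ^ 2 ≤ 1 := pow_le_one₀ (by positivity) ρb
    have h2 : 4 * A ^ 2 * (Λ ^ 2 * t) ≤ 4 * A ^ 2 * (Λ ^ 2 * ρ ^ 2) :=
      mul_le_mul_of_nonneg_left (mul_le_mul_of_nonneg_left htρ (by positivity)) (by positivity)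
    have h3 : (4 * A * Λ * ρ) ^ 2 = 4 * (4 * A ^ 2 * (Λ ^ 2 * ρ ^ 2)) := by ring
    linarith
  · have h1 : Λ ^ 2 * t ≤ Λ ^ 2 * ρ := mul_le_mul_of_nonneg_left htρ1 (by positivity)
    have h2 : 2 * |K| * (Λ ^ 2 * t) ≤ 2 * (|K| + 1) * (Λ ^ 2 * ρ) :=
      mul_le_mul (by linarith) h1 (by positivity) (by positivity)
    linarith

end

theorem min6 {z a b c d e f : ℝ} (h : z ≤ min (min a b) (min (min c d) (min e f))) :
    z ≤ a ∧ z ≤ b ∧ z ≤ c ∧ z ≤ d ∧ z ≤ e ∧ z ≤ f :=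
  ⟨h.trans ((min_le_left _ _).trans (min_le_left _ _)),
    h.trans ((min_le_left _ _).trans (min_le_right _ _)),
    h.trans ((min_le_right _ _).trans ((min_le_left _ _).trans (min_le_left _ _))),
    h.trans ((min_le_right _ _).trans ((min_le_left _ _).trans (min_le_right _ _))),
    h.trans ((min_le_right _ _).trans ((min_le_right _ _).trans (min_le_left _ _))),
    h.trans ((min_le_right _ _).trans ((min_le_right _ _).trans (min_le_right _ _)))⟩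

/-- choice of the constants of the step -/
theorem exists_consts {n : ℕ} {A κ Λ : ℝ} (hn : (1 : ℝ) ≤ n) (hA : 1 ≤ A) (hκ : 0 < κ)
    (hΛ : 1 ≤ Λ) : ∃ A₂ ψ σ L : ℝ, 1 ≤ A₂ ∧ 12 * n ≤ A₂ ∧
      cG n A (4 * A ^ 2) 0 * cW A 2 * Real.exp (2 * A) ≤ A₂ ∧ 0 < ψ ∧ ψ ≤ 1 ∧
      ψ ≤ κ / (16 * n) ∧ √ψ ≤ 1 / (8 * n) ∧ 0 < σ ∧ σ ≤ 1 / 2 ∧
      40 * Λ * √(A₂ * σ) ≤ κ / (16 * n) ∧ 2 ≤ L ∧
      cG n A (4 * A ^ 2) 0 * Real.exp (2 * A) *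
        Real.exp (-((L - 2) ^ 2 / (2 * A * Λ ^ 2))) ≤ σ := by
  have hA0 : 0 < A := by linarith
  have hΛ0 : 0 < Λ := by linarith
  have hn0 : (0 : ℝ) < n := by linarith
  obtain ⟨A₂, a1, a2, a3⟩ : ∃ A₂ : ℝ, 1 ≤ A₂ ∧ 12 * n ≤ A₂ ∧
      cG n A (4 * A ^ 2) 0 * cW A 2 * Real.exp (2 * A) ≤ A₂ :=
    ⟨max (max 1 (12 * n)) (cG n A (4 * A ^ 2) 0 * cW A 2 * Real.exp (2 * A)),
      (le_max_left _ _).trans (le_max_left _ _), (le_max_right _ _).trans (le_max_left _ _),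
      le_max_right _ _⟩
  have a0 : 0 < A₂ := by linarith
  obtain ⟨ψ, ψ0, ψ1, ψ2⟩ : ∃ ψ : ℝ, 0 < ψ ∧ ψ ≤ 1 / (64 * (n : ℝ) ^ 2) ∧ ψ ≤ κ / (16 * n) :=
    ⟨min (1 / (64 * n ^ 2)) (κ / (16 * n)), by positivity, min_le_left _ _, min_le_right _ _⟩
  have ψ3 : ψ ≤ 1 := ψ1.trans (by
    rw [div_le_one (by positivity)]; nlinarith)
  have ψ4 : √ψ ≤ 1 / (8 * n) := by
    rw [Real.sqrt_le_left (by positivity)]
    refine ψ1.trans (le_of_eq ?_)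
    field_simp
    norm_num
  obtain ⟨σ, σ0, σ1, σ3⟩ : ∃ σ : ℝ, 0 < σ ∧ σ ≤ 1 / 2 ∧ σ ≤ (κ / (640 * n * Λ)) ^ 2 / A₂ :=
    ⟨min (1 / 2) ((κ / (640 * n * Λ)) ^ 2 / A₂), by positivity, min_le_left _ _, min_le_right _ _⟩
  have σ2 : 40 * Λ * √(A₂ * σ) ≤ κ / (16 * n) := by
    have h1 : √(A₂ * σ) ≤ κ / (640 * n * Λ) := by
      rw [Real.sqrt_le_left (by positivity)]
      rw [le_div_iff₀ a0] at σ3
      linarith
    calc 40 * Λ * √(A₂ * σ) ≤ 40 * Λ * (κ / (640 * n * Λ)) :=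
          mul_le_mul_of_nonneg_left h1 (by positivity)
      _ = κ / (16 * n) := by field_simp; ring
  obtain ⟨L, hL0, hL2, hLσ⟩ := exists_radius (C := cG n A (4 * A ^ 2) 0 * Real.exp (2 * A))
    (a := 2 * A * Λ ^ 2) (σ := σ) (L₀ := 2)
    (mul_pos (cG_pos hA (by positivity)) (Real.exp_pos _)) (by positivity) σ0
  exact ⟨A₂, ψ, σ, L, a1, a2, a3, ψ0, ψ3, ψ2, ψ4, σ0, σ1, σ2, hL2, hLσ⟩

/-- choice of the background constant -/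
theorem exists_bg {n κ B ε1 ε' : ℝ} (hn : 0 < n) (hκ : 0 < κ) (hB : 0 < B) (hε1 : 0 < ε1)
    (hε' : 0 < ε') : ∃ A₀ : ℝ, 0 < A₀ ∧ A₀ ≤ ε1 ∧
      A₀ ≤ (κ / (16 * n) / (2 * B)) ^ 2 ∧ A₀ ≤ κ / (16 * n) / (4 * B) ∧
      8 * n ^ 2 * (B * (2 * (2 * A₀))) ≤ ε' := by
  refine ⟨min (min ε1 ((κ / (16 * n) / (2 * B)) ^ 2))
      (min (κ / (16 * n) / (4 * B)) (ε' / (32 * n ^ 2 * B))), by positivity,
      (min_le_left _ _).trans (min_le_left _ _), (min_le_left _ _).trans (min_le_right _ _),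
      (min_le_right _ _).trans (min_le_left _ _), ?_⟩
  have h : min (min ε1 ((κ / (16 * n) / (2 * B)) ^ 2))
      (min (κ / (16 * n) / (4 * B)) (ε' / (32 * n ^ 2 * B))) ≤ ε' / (32 * n ^ 2 * B) :=
    (min_le_right _ _).trans (min_le_right _ _)
  rw [le_div_iff₀ (by positivity)] at h
  linarith

theorem max5 {z a b c d e : ℝ} (h : max (max (max a b) (max c d)) e ≤ z) :
    a ≤ z ∧ b ≤ z ∧ c ≤ z ∧ d ≤ z ∧ e ≤ z :=
  ⟨(le_max_left _ _).trans ((le_max_left _ _).trans ((le_max_left _ _).trans h)),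
    (le_max_right _ _).trans ((le_max_left _ _).trans ((le_max_left _ _).trans h)),
    (le_max_left _ _).trans ((le_max_right _ _).trans ((le_max_left _ _).trans h)),
    (le_max_right _ _).trans ((le_max_right _ _).trans ((le_max_left _ _).trans h)),
    (le_max_right _ _).trans h⟩

section

variable {M : Type u} [MetricSpace M] [CompleteSpace M] [SecondCountableTopology M]
  [MeasurableSpace M] [BorelSpace M] {m : Measure M} {n : ℕ}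
  {K : ℝ} {o : M} {A : ℝ} {p : ℝ → M → M → ℝ} {u : Fin n → M →ₘ[m] ℝ} {uu : M → H71.E n}
  {R Q η ρ : ℝ}

/-- the vertices stay in the region of the drop function -/
theorem drop_at (e : H71.Env m n K o A p) (hu : Cfg m n K o p R Q η ρ u uu) {A₀ δ t : ℝ} {x : M}
    (hQ : 1 ≤ Q) (hR : 4 ≤ R) (hA₀ : 0 ≤ A₀) (hδ : δ ≤ A₀) (hdrop : DropS m n K o p R Q δ ρ)
    (hx : x ∈ ball o (R / 2 * ρ)) (ht : 0 < t) (htρ : t ≤ ρ ^ 2) (q : M)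
    (hq : dist x q ≤ 2 * √t) : Dt m n K p Q A₀ ρ t q ≤ 2 * A₀ := by
  have hρ := hu.ρ_pos
  have hsρ : √t ≤ ρ := by
    rw [Real.sqrt_le_left hρ.le]; exact htρ
  have hxo : dist x o < R / 2 * ρ := mem_ball.1 hx
  have hqo : q ∈ ball o (R * ρ) := by
    rw [mem_ball]
    have h1 : dist q o ≤ dist x q + dist x o := by
      rw [dist_comm x q]; exact dist_triangle _ _ _
    nlinarith
  have := H744.dt_le e hQ hρ hA₀ hdrop hqo ht htρ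
  linarith

end

/-- **A-T7**: `Blk_T` from its inputs -/
theorem blk_T_of (hNear : Blk_NearX.{u}) (hPre : H358.Blk_PreX.{u}) (hNd : Blk_Nd.{u})
    (hR12 : Blk_R12.{u}) : H71.Blk_T.{u} := by
  intro M _ _ _ _ _ m n K o A p e
  have hA := e.kb.one_le
  have hA0 := e.kb.pos
  have hn : (1 : ℝ) ≤ n := by exact_mod_cast (by have := e.hyp.two_le; omega : 1 ≤ n)
  have hn0 : (0 : ℝ) < n := by linarith
  obtain ⟨Λ, hΛ, Q1, hQ1, hR12⟩ := hR12 M m n K o A p e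
  obtain ⟨κ, hκ, hNd⟩ := hNd M m n K o A p e
  have hΛ0 : 0 < Λ := by linarith
  have hΛ1 : (1 : ℝ) ≤ Λ := by linarith
  obtain ⟨Q2, hQ2, hNd⟩ := hNd Λ hΛ1
  obtain ⟨Q3, hQ3, hPre⟩ := hPre M m n K o A p e Λ hΛ1
  obtain ⟨A₂, ψ, σ, L, a1, a2, a3, ψ0, ψ3, ψ2, ψ4, σ0, σ1, σ2, hL2, hLσ⟩ :=
    exists_consts hn hA hκ hΛ1
  obtain ⟨Q4, hQ4, hNear⟩ := hNear M m n K o A p e L ψ (by linarith) ψ0
  refine ⟨max (max (max Q1 Q2) (max Q3 Q4)) (2 * A), hQ1.trans ((le_max_left _ _).trans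
    ((le_max_left _ _).trans (le_max_left _ _))), fun Q hQ => ?_⟩
  obtain ⟨q1, q2, q3, q4, q5⟩ := max5 hQ
  have q6 : 1 ≤ Q := hQ1.trans q1
  obtain ⟨R1, hR1, hR12⟩ := hR12 Q q1
  obtain ⟨R2, hR2, hNd⟩ := hNd Q q2
  obtain ⟨R3, hR3, hPre⟩ := hPre Q q3
  obtain ⟨R4, hR4, hNear⟩ := hNear Q q4
  refine ⟨max (max (max R1 R2) (max R3 R4)) 4, hR1.trans ((le_max_left _ _).trans
    ((le_max_left _ _).trans (le_max_left _ _))), fun R hR => ?_⟩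
  obtain ⟨r1, r2, r3, r4, r5⟩ := max5 hR
  obtain ⟨B, ε1, hB, hε1, hR12⟩ := hR12 R r1
  obtain ⟨ε2, hε2, hNd⟩ := hNd R r2
  obtain ⟨ε3, hε3, hPre⟩ := hPre R r3 (1 / 2) (by norm_num)
  obtain ⟨ε4, hε4, hNear⟩ := hNear R r4
  have hB0 : 0 < B := by linarith
  intro ε hε
  obtain ⟨ε', e0, e1, e2, e3, e4, e5⟩ : ∃ ε' : ℝ, 0 < ε' ∧ ε' ≤ ε1 ∧ ε' ≤ ε2 ∧ ε' ≤ ε3 ∧
      ε' ≤ ε4 ∧ ε' ≤ ε :=
    ⟨min (min (min ε1 ε2) (min ε3 ε4)) ε, by positivity,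
      (min_le_left _ _).trans ((min_le_left _ _).trans (min_le_left _ _)),
      (min_le_left _ _).trans ((min_le_left _ _).trans (min_le_right _ _)),
      (min_le_left _ _).trans ((min_le_right _ _).trans (min_le_left _ _)),
      (min_le_left _ _).trans ((min_le_right _ _).trans (min_le_right _ _)), min_le_right _ _⟩
  obtain ⟨A₀, A0pos, A01, A02, A03, hs2⟩ := exists_bg hn0 hκ hB0 hε1 e0
  obtain ⟨M₀, hM₀, η1, hη1, hR12⟩ := hR12 A₀ A0pos A01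
  obtain ⟨η2, hη2, hbase⟩ := base_T e q6 q5 hM₀ e0
  have hL00 : 0 < L := by linarith
  refine ⟨min (min ε' η1) (min (min η2 A₀) (min (min (1 / L) (min (1 / (4 * A * Λ))
    (1 / (2 * (|K| + 1) * Λ ^ 2)))) 1)), by positivity, ?_⟩
  intro η δ ρ hη hηle hδ hρle u uu hu hdrop
  obtain ⟨x1, x2, x3, -, -, -⟩ := min6 hηle
  obtain ⟨-, y2, -, y4, -, -⟩ := min6 hδ
  obtain ⟨z1, z2, -, -, z5, z6⟩ := min6 hρle
  have hρ := hu.ρ_pos
  have hs1 := const_small hn0 hκ hB0 A0pos A02 A03 ψ2 ψ4 σ2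
  refine induct_T e hu hΛ hM₀ e5 (fun x hx => hbase R η ρ u uu hη x3 hu x ?_) ?_
  · rw [mem_ball] at hx ⊢
    have := mul_pos (show 0 < R by linarith) hρ
    linarith
  intro x hx t ht hMt hT
  have htρ : t ≤ ρ ^ 2 := (le_mul_of_one_le_left ht.le hM₀).trans hMt
  obtain ⟨w1, w2, w3⟩ := scale_small (K := K) hA0 hL00 hΛ0 hρ ht htρ z6 z5
  have hxo : dist x o < R / 2 * ρ := mem_ball.1 hx
  have hRρ := hu.Rρ
  exact step_at e hu (D₀ := 2 * A₀) (A₀ := A₀) q6 hΛ hL2 ψ0.le ψ3 hκ hB0.le (by positivity) σ0 σ1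
    a1 a2 a3 hLσ (by linarith) ht w1 w2 w3 hT
    (hNear ε' η ρ e0 e4 hη (x1.trans e4) (z1.trans e4) u uu hu x hx t ht htρ hT)
    (hPre ε' η ρ e0 e3 hη (x1.trans e3) (z1.trans e3) u uu hu x hx t ht htρ hT)
    (hNd ε' η ρ e0 e2 hη (x1.trans e2) (z1.trans e2) u uu hu x hx t ht htρ hT (Λ ^ 2 * t)
      (le_mul_of_one_le_left ht.le (one_le_pow₀ hΛ1)) le_rfl)
    (hR12 ε' η δ ρ e0 e1 hη x2 y2 z2 u uu hu hdrop x hx t ht hMt hT)
    (drop_at e hu q6 r5 A0pos.le y4 hdrop hx ht htρ) hs1 hs2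

end Vale.Agent.P242.H155
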